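import Mathlib

/-!
# P207, block PI0: the leaf Darboux equation

`y_le`, `int_p_le`: comparison for `y' + 2 d coth(2 t) y = p`, `y(0) = 0`, `|p| ≤ M`:
`y ≤ M tanh(2 t) / (2 d)` and `∫₀ᴿ p ≤ y(R) + 2 d ∫₀ᴿ y + (log 2 / 2) M`.
-/

open Filter Topology MeasureTheory

noncomputable section

namespace Vale.Agent.P207.H143

theorem hasDerivAt_two (t : ℝ) : HasDerivAt (fun t : ℝ => 2 * t) 2 t := by
  simpa using (hasDerivAt_id' t).const_mul (2:ℝ)

theorem dsinh (t : ℝ) : HasDerivAt (fun t : ℝ => Real.sinh (2 * t)) (2 * Real.cosh (2 * t)) t := by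
  have h := (hasDerivAt_two t).sinh
  rw [mul_comm] at h
  exact h

theorem dcosh (t : ℝ) : HasDerivAt (fun t : ℝ => Real.cosh (2 * t)) (2 * Real.sinh (2 * t)) t := by
  have h := (hasDerivAt_two t).cosh
  rw [mul_comm] at h
  exact h

theorem dtanh (t : ℝ) : HasDerivAt (fun t : ℝ => Real.sinh (2 * t) / Real.cosh (2 * t))
    (2 / Real.cosh (2 * t) ^ 2) t := by
  have hc := (Real.cosh_pos (2 * t)).ne'
  refine ((dsinh t).div (dcosh t) hc).congr_deriv ?_
  have h := Real.cosh_sq (2 * t)
  congr 1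
  linear_combination 2 * h

theorem y_le {d : ℝ} (hd : 0 < d) {M : ℝ} (hM : 0 ≤ M) {y y' p : ℝ → ℝ}
    (hy : ∀ t, HasDerivAt y (y' t) t) (hp : ∀ t, |p t| ≤ M) (h0 : y 0 = 0)
    (hode : ∀ t, Real.sinh (2 * t) * (p t - y' t) = 2 * d * Real.cosh (2 * t) * y t)
    {t : ℝ} (ht : 0 ≤ t) : 2 * d * Real.cosh (2 * t) * y t ≤ M * Real.sinh (2 * t) := by
  set ψ : ℝ → ℝ := fun t => M / (2 * d) * (Real.sinh (2 * t) / Real.cosh (2 * t)) - y t with hψ
  have dψ : ∀ t, HasDerivAt ψ (M / (2 * d) * (2 / Real.cosh (2 * t) ^ 2) - y' t) t := fun t =>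
    ((dtanh t).const_mul _).sub (hy t)
  set Φ : ℝ → ℝ := fun t => Real.sinh (2 * t) ^ d * ψ t with hΦ
  have cψ : Continuous ψ := continuous_iff_continuousAt.2 fun t => (dψ t).continuousAt
  have cs : Continuous fun t : ℝ => Real.sinh (2 * t) :=
    Real.continuous_sinh.comp (continuous_const.mul continuous_id)
  have cΦ : Continuous Φ := by
    refine Continuous.mul ?_ cψ
    exact cs.rpow_const fun _ => Or.inr hd.le
  have dΦ : ∀ t, 0 < t → HasDerivAt Φ (Real.sinh (2 * t) ^ (d - 1) *
      (2 * d * Real.cosh (2 * t) * ψ t + Real.sinh (2 * t) *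
        (M / (2 * d) * (2 / Real.cosh (2 * t) ^ 2) - y' t))) t := by
    intro t ht
    have hs : 0 < Real.sinh (2 * t) := Real.sinh_pos_iff.2 (by linarith)
    have h1 := ((dsinh t).rpow_const (p := d) (Or.inl hs.ne')).mul (dψ t)
    refine h1.congr_deriv ?_
    have h2 : Real.sinh (2 * t) ^ d = Real.sinh (2 * t) ^ (d - 1) * Real.sinh (2 * t) := by
      rw [Real.rpow_sub_one hs.ne']
      field_simp
    rw [h2]
    ring
  have hmono : MonotoneOn Φ (Set.Ici 0) := by
    refine monotoneOn_of_deriv_nonneg (convex_Ici 0) cΦ.continuousOn ?_ ?_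
    · rw [interior_Ici]
      intro t ht
      exact (dΦ t ht).differentiableAt.differentiableWithinAt
    · rw [interior_Ici]
      intro t ht
      rw [(dΦ t ht).deriv]
      have ht' : 0 < t := ht
      have hs : 0 < Real.sinh (2 * t) := Real.sinh_pos_iff.2 (by linarith)
      have hc := Real.cosh_pos (2 * t)
      refine mul_nonneg (Real.rpow_nonneg hs.le _) ?_
      have h1 := hode t
      have h2 : 2 * d * Real.cosh (2 * t) * ψ t = M * Real.sinh (2 * t) -
          2 * d * Real.cosh (2 * t) * y t := by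
        simp only [hψ]
        field_simp
      have h3 := (abs_le.1 (hp t)).2
      have h4 : 0 ≤ M / (2 * d) * (2 / Real.cosh (2 * t) ^ 2) := by positivity
      rw [h2, ← h1]
      have h5 : M * Real.sinh (2 * t) - Real.sinh (2 * t) * (p t - y' t) +
          Real.sinh (2 * t) * (M / (2 * d) * (2 / Real.cosh (2 * t) ^ 2) - y' t) =
          Real.sinh (2 * t) * (M - p t + M / (2 * d) * (2 / Real.cosh (2 * t) ^ 2)) := by ring
      rw [h5]
      exact mul_nonneg hs.le (by linarith)
  have h1 := hmono (Set.mem_Ici.2 le_rfl) (Set.mem_Ici.2 ht) ht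
  have h2 : Φ 0 = 0 := by
    simp only [hΦ, hψ, h0]
    simp
  rw [h2] at h1
  rcases ht.eq_or_lt with h3 | h3
  · rw [← h3, h0]; simp
  · have hs : 0 < Real.sinh (2 * t) := Real.sinh_pos_iff.2 (by linarith)
    have hc := Real.cosh_pos (2 * t)
    have h4 : 0 ≤ ψ t := by
      by_contra hcon
      push Not at hcon
      have : Φ t < 0 := mul_neg_of_pos_of_neg (Real.rpow_pos_of_pos hs _) hcon
      linarith
    have h5 : 2 * d * Real.cosh (2 * t) * ψ t = M * Real.sinh (2 * t) -
          2 * d * Real.cosh (2 * t) * y t := by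
      simp only [hψ]
      field_simp
    have h6 : 0 ≤ 2 * d * Real.cosh (2 * t) * ψ t := by positivity
    linarith

theorem int_p_le {d : ℝ} (hd : 0 < d) {M : ℝ} (hM : 0 ≤ M) {y y' p : ℝ → ℝ}
    (hy : ∀ t, HasDerivAt y (y' t) t) (hpc : Continuous p) (hp : ∀ t, |p t| ≤ M) (h0 : y 0 = 0)
    (hode : ∀ t, Real.sinh (2 * t) * (p t - y' t) = 2 * d * Real.cosh (2 * t) * y t)
    {R : ℝ} (hR : 0 ≤ R) :
    ∫ t in (0:ℝ)..R, p t ≤ y R + 2 * d * (∫ t in (0:ℝ)..R, y t) + Real.log 2 / 2 * M := by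
  have cy : Continuous y := continuous_iff_continuousAt.2 fun t => (hy t).continuousAt
  set Φ : ℝ → ℝ := fun R => y R + 2 * d * (∫ t in (0:ℝ)..R, y t) +
    M * (R - 1 / 2 * Real.log (Real.cosh (2 * R))) - ∫ t in (0:ℝ)..R, p t with hΦ
  have dΦ : ∀ R, HasDerivAt Φ (y' R + 2 * d * y R +
      M * (1 - Real.sinh (2 * R) / Real.cosh (2 * R)) - p R) R := by
    intro R
    have h1 := intervalIntegral.integral_hasDerivAt_right (cy.intervalIntegrable 0 R)
      (cy.stronglyMeasurableAtFilter _ _) cy.continuousAt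
    have h2 := intervalIntegral.integral_hasDerivAt_right (hpc.intervalIntegrable 0 R)
      (hpc.stronglyMeasurableAtFilter _ _) hpc.continuousAt
    have h3 := (dcosh R).log (Real.cosh_pos (2 * R)).ne'
    have h4 := ((hasDerivAt_id' R).sub (h3.const_mul (1 / 2))).const_mul M
    refine ((((hy R).add (h1.const_mul (2 * d))).add h4).sub h2).congr_deriv ?_
    have hc := (Real.cosh_pos (2 * R)).ne'
    field_simp
  have hmono : MonotoneOn Φ (Set.Ici 0) := by
    refine monotoneOn_of_deriv_nonneg (convex_Ici 0) ?_ ?_ ?_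
    · exact (continuous_iff_continuousAt.2 fun t => (dΦ t).continuousAt).continuousOn
    · intro t _
      exact (dΦ t).differentiableAt.differentiableWithinAt
    · rw [interior_Ici]
      intro t ht
      rw [(dΦ t).deriv]
      have ht' : 0 < t := ht
      have hs : 0 < Real.sinh (2 * t) := Real.sinh_pos_iff.2 (by linarith)
      have hc := Real.cosh_pos (2 * t)
      have h1 := hode t
      have h2 := y_le hd hM hy hp h0 hode ht'.le
      have hcs : 0 ≤ Real.cosh (2 * t) - Real.sinh (2 * t) := by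
        rw [Real.cosh_sub_sinh]; exact (Real.exp_pos _).le
      have h3 : Real.sinh (2 * t) * Real.cosh (2 * t) * (y' t + 2 * d * y t +
          M * (1 - Real.sinh (2 * t) / Real.cosh (2 * t)) - p t) =
          (Real.cosh (2 * t) - Real.sinh (2 * t)) *
            (M * Real.sinh (2 * t) - 2 * d * Real.cosh (2 * t) * y t) := by
        field_simp
        linear_combination -Real.cosh (2 * t) * h1
      have h4 : 0 ≤ Real.sinh (2 * t) * Real.cosh (2 * t) * (y' t + 2 * d * y t +
          M * (1 - Real.sinh (2 * t) / Real.cosh (2 * t)) - p t) := by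
        rw [h3]; exact mul_nonneg hcs (by linarith)
      exact nonneg_of_mul_nonneg_right h4 (mul_pos hs hc)
  have h1 := hmono (Set.mem_Ici.2 le_rfl) (Set.mem_Ici.2 hR) hR
  have h2 : Φ 0 = 0 := by simp [hΦ, h0]
  have h3 : R - 1 / 2 * Real.log (Real.cosh (2 * R)) ≤ Real.log 2 / 2 := by
    have h4 : Real.exp (2 * R) / 2 ≤ Real.cosh (2 * R) := by
      rw [Real.cosh_eq]
      have := Real.exp_pos (-(2 * R))
      linarith
    have h5 := Real.log_le_log (by positivity) h4
    rw [Real.log_div (Real.exp_pos _).ne' two_ne_zero, Real.log_exp] at h5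
    linarith
  have h4 := mul_le_mul_of_nonneg_left h3 hM
  rw [h2] at h1
  simp only [hΦ] at h1
  linarith

end Vale.Agent.P207.H143
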