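import Mathlib

/-!
# P207, block PI0: Fejer averages over the truncation time, real lemma
-/

open MeasureTheory

noncomputable section

namespace Vale.Agent.P207.H143

/-- Fejer average (not normalised) -/
def Av (S : ℝ) (φ : ℝ → ℝ) : ℝ := ∫ T in (0:ℝ)..S, (S - T) * φ T

theorem avInt {φ : ℝ → ℝ} (h : Continuous φ) (S : ℝ) :
    IntervalIntegrable (fun T => (S - T) * φ T) volume 0 S :=
  (Continuous.mul (by fun_prop) h).intervalIntegrable _ _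

theorem Av_add {φ ψ : ℝ → ℝ} (hφ : Continuous φ) (hψ : Continuous ψ) (S : ℝ) :
    Av S (fun T => φ T + ψ T) = Av S φ + Av S ψ := by
  unfold Av
  rw [← intervalIntegral.integral_add (avInt hφ S) (avInt hψ S)]
  simp only [mul_add]

theorem Av_sub {φ ψ : ℝ → ℝ} (hφ : Continuous φ) (hψ : Continuous ψ) (S : ℝ) :
    Av S (fun T => φ T - ψ T) = Av S φ - Av S ψ := by
  unfold Av
  rw [← intervalIntegral.integral_sub (avInt hφ S) (avInt hψ S)]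
  simp only [mul_sub]

theorem Av_cmul (c : ℝ) (φ : ℝ → ℝ) (S : ℝ) : Av S (fun T => c * φ T) = c * Av S φ := by
  unfold Av
  rw [← intervalIntegral.integral_const_mul]
  refine intervalIntegral.integral_congr fun T _ => ?_
  show (S - T) * (c * φ T) = c * ((S - T) * φ T)
  ring

theorem Av_const (c S : ℝ) : Av S (fun _ => c) = S ^ 2 / 2 * c := by
  unfold Av
  have hd : ∀ T ∈ Set.uIcc 0 S, HasDerivAt (fun T => (S * T - T ^ 2 / 2) * c) ((S - T) * c) T := by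
    intro T _
    have h5 := (((hasDerivAt_id' T).const_mul S).sub ((hasDerivAt_pow 2 T).div_const 2)).mul_const c
    refine h5.congr_deriv ?_
    simp
  rw [intervalIntegral.integral_eq_sub_of_hasDerivAt hd
    ((by fun_prop : Continuous fun T : ℝ => (S - T) * c).intervalIntegrable _ _)]
  ring

theorem Av_mono {φ ψ : ℝ → ℝ} (hφ : Continuous φ) (hψ : Continuous ψ) {S : ℝ} (hS : 0 ≤ S)
    (h : ∀ T, 0 ≤ T → φ T ≤ ψ T) : Av S φ ≤ Av S ψ := by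
  refine intervalIntegral.integral_mono_on hS (avInt hφ S) (avInt hψ S) fun T hT => ?_
  exact mul_le_mul_of_nonneg_left (h T hT.1) (by linarith [hT.2])

/-- a lower bound of the average is attained somewhere -/
theorem exists_of_Av {Ψ : ℝ → ℝ} (hΨ : Continuous Ψ) {S A : ℝ} (hS : 0 < S)
    (h : S ^ 2 / 2 * A ≤ Av S Ψ) : ∃ T, 0 ≤ T ∧ A ≤ Ψ T := by
  by_contra hcon
  push Not at hcon
  have h7 : Av S Ψ < Av S fun _ => A := by
    refine intervalIntegral.integral_lt_integral_of_continuousOn_of_le_of_exists_lt hS ?_ ?_ ?_ ?_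
    · exact (Continuous.mul (by fun_prop) hΨ).continuousOn
    · exact (by fun_prop : Continuous fun T : ℝ => (S - T) * A).continuousOn
    · intro T hT
      exact mul_le_mul_of_nonneg_left (hcon T hT.1.le).le (by linarith [hT.2])
    · exact ⟨0, ⟨le_refl _, hS.le⟩, mul_lt_mul_of_pos_left (hcon 0 (le_refl _))
        (by linarith)⟩
  rw [Av_const] at h7
  linarith

/-- the arithmetic of the averages -/
theorem avg_arith {S L σ D₂ Dd Q F P Ml K₀ A1 A2 A3 m1 m2 c j k jg κ1 κ2 κ3 E1 E2 : ℝ}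
    (_hS : 0 < S) (hL : 0 < L) (hσ : 0 ≤ 4 * σ - 1) (hσ2 : (4 * σ - 1) * D₂ ≤ Dd)
    (hD : 0 ≤ D₂) (hK₀ : 0 ≤ K₀) (hm1 : 0 ≤ m1) (hm2 : 0 ≤ m2)
    (hc : 0 ≤ c) (h1l : -(S * A1) ≤ κ1) (h1u : κ1 ≤ S * A1) (h2 : -(S * A2) ≤ κ2)
    (h3 : -(S * A3) ≤ κ3) (hsq : 2 * (σ / L) * k - (σ / L) ^ 2 * jg ≤ j)
    (hnear : S ^ 2 / 2 * (Q + D₂ * F) - D₂ * c - 1 / 2 * κ1 - K₀ * E2 ≤ 1 / 2 * k)
    (hJ : jg ≤ S ^ 2 / 2 * (2 * D₂ * P + Ml) - 2 * D₂ * κ2 - κ3)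
    (he1 : E1 ≤ S / 2) (he2 : E2 ≤ S / 4) :
    S ^ 2 / 2 * ((4 * σ - 1) * (Q + D₂ * F) - σ ^ 2 / L * (2 * D₂ * P + Ml)) -
      S * ((4 * σ - 1) * (A1 / 2 + K₀ / 4) + A1 / 2 + m1 / 2 + m2 / 4 +
        σ ^ 2 / L * (A3 + 2 * D₂ * A2)) ≤
      Dd * c + L * j - 1 / 2 * k + 1 / 2 * κ1 - m1 * E1 - m2 * E2 := by
  have c1 : 2 * σ * k - σ ^ 2 / L * jg ≤ L * j := by
    have h := mul_le_mul_of_nonneg_left hsq hL.le
    have e : L * (2 * (σ / L) * k - (σ / L) ^ 2 * jg) = 2 * σ * k - σ ^ 2 / L * jg := by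
      field_simp
    linarith
  have hτ : 0 ≤ σ ^ 2 / L := by positivity
  generalize σ ^ 2 / L = τ at *
  have c2 := mul_le_mul_of_nonneg_left hnear hσ
  have c3 := mul_le_mul_of_nonneg_left hJ hτ
  have c4 := mul_nonneg (sub_nonneg.2 hσ2) hc
  have c5 := mul_le_mul_of_nonneg_left he2 (mul_nonneg hσ hK₀)
  have c6 := mul_le_mul_of_nonneg_left he1 hm1
  have c7 := mul_le_mul_of_nonneg_left he2 hm2
  have c8 := mul_le_mul_of_nonneg_left h2 (mul_nonneg hτ (mul_nonneg zero_le_two hD))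
  have c9 := mul_le_mul_of_nonneg_left h3 hτ
  have c10 := mul_le_mul_of_nonneg_left h1u hσ
  linear_combination c1 + c2 + c3 + c4 + c5 + c6 + c7 + c8 + c9 + (1 / 2) * c10 + (1 / 2) * h1l

/-- The Fejer argument. -/
theorem exists_real {C J K Jg k1 k2 k3 e1 e2 : ℝ → ℝ} {L σ D₂ Dd Q F P Ml K₀ A1 A2 A3 m1 m2 : ℝ}
    (cC : Continuous C) (cJ : Continuous J) (cK : Continuous K) (cJg : Continuous Jg)
    (ck1 : Continuous k1) (ck2 : Continuous k2) (ck3 : Continuous k3) (ce1 : Continuous e1)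
    (ce2 : Continuous e2) (hL : 0 < L) (hσ : 0 ≤ 4 * σ - 1) (hσ2 : (4 * σ - 1) * D₂ ≤ Dd)
    (hD : 0 ≤ D₂) (hK₀ : 0 ≤ K₀) (hm1 : 0 ≤ m1) (hm2 : 0 ≤ m2) (hA1 : 0 ≤ A1) (hA2 : 0 ≤ A2)
    (hA3 : 0 ≤ A3)
    (hc : ∀ S, 0 < S → 0 ≤ Av S C) (h1l : ∀ S, 0 < S → -(S * A1) ≤ Av S k1)
    (h1u : ∀ S, 0 < S → Av S k1 ≤ S * A1) (h2 : ∀ S, 0 < S → -(S * A2) ≤ Av S k2)
    (h3 : ∀ S, 0 < S → -(S * A3) ≤ Av S k3)
    (hsq : ∀ S, 0 < S → 2 * (σ / L) * Av S K - (σ / L) ^ 2 * Av S Jg ≤ Av S J)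
    (hnear : ∀ T, 0 ≤ T → Q + D₂ * (F - C T) - 1 / 2 * k1 T - K₀ * e2 T ≤ 1 / 2 * K T)
    (hJ : ∀ T, 0 ≤ T → Jg T ≤ -k3 T + 2 * D₂ * (P - k2 T) + Ml)
    (he1 : ∀ S, 0 < S → Av S e1 ≤ S / 2) (he2 : ∀ S, 0 < S → Av S e2 ≤ S / 4)
    {ε : ℝ} (hε : 0 < ε) :
    ∃ T, 0 ≤ T ∧ (4 * σ - 1) * (Q + D₂ * F) - σ ^ 2 / L * (2 * D₂ * P + Ml) - ε ≤
      Dd * C T + L * J T - 1 / 2 * K T + 1 / 2 * k1 T - m1 * e1 T - m2 * e2 T := by
  obtain ⟨Kt, hKt⟩ : ∃ Kt, Kt = (4 * σ - 1) * (A1 / 2 + K₀ / 4) + A1 / 2 + m1 / 2 + m2 / 4 +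
        σ ^ 2 / L * (A3 + 2 * D₂ * A2) := ⟨_, rfl⟩
  obtain ⟨R₀, hR₀⟩ : ∃ R₀, R₀ = (4 * σ - 1) * (Q + D₂ * F) - σ ^ 2 / L * (2 * D₂ * P + Ml) :=
    ⟨_, rfl⟩
  have hKt0 : 0 ≤ Kt := by rw [hKt]; positivity
  rw [← hR₀]
  obtain ⟨S, hSdef⟩ : ∃ S, S = 2 * (Kt + 1) / ε := ⟨_, rfl⟩
  have hS : 0 < S := by rw [hSdef]; positivity
  have hSε : S * ε = 2 * (Kt + 1) := by rw [hSdef]; field_simp
  refine exists_of_Av (Ψ := fun T => Dd * C T + L * J T - 1 / 2 * K T + 1 / 2 * k1 T - m1 * e1 T -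
    m2 * e2 T) (by fun_prop) hS ?_
  rw [Av_sub (by fun_prop) (by fun_prop), Av_sub (by fun_prop) (by fun_prop),
    Av_add (by fun_prop) (by fun_prop), Av_sub (by fun_prop) (by fun_prop),
    Av_add (by fun_prop) (by fun_prop), Av_cmul, Av_cmul, Av_cmul, Av_cmul, Av_cmul, Av_cmul]
  have n1 := Av_mono (S := S) (φ := fun T => Q + D₂ * (F - C T) - 1 / 2 * k1 T - K₀ * e2 T)
    (ψ := fun T => 1 / 2 * K T) (by fun_prop) (by fun_prop) hS.le hnear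
  rw [Av_sub (by fun_prop) (by fun_prop), Av_sub (by fun_prop) (by fun_prop),
    Av_add (by fun_prop) (by fun_prop), Av_cmul D₂, Av_sub (by fun_prop) (by fun_prop), Av_cmul,
    Av_cmul, Av_cmul, Av_const, Av_const] at n1
  have n2 := Av_mono (S := S) (φ := Jg) (ψ := fun T => -k3 T + 2 * D₂ * (P - k2 T) + Ml)
    (by fun_prop) (by fun_prop) hS.le hJ
  have e3 : Av S (fun T => -k3 T) = -Av S k3 := by
    have := Av_cmul (-1) k3 S
    simpa using this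
  rw [Av_add (by fun_prop) (by fun_prop), Av_add (by fun_prop) (by fun_prop), e3,
    Av_cmul (2 * D₂), Av_sub (by fun_prop) (by fun_prop), Av_const, Av_const] at n2
  have main := avg_arith (Q := Q) (F := F) (P := P) (Ml := Ml) hS hL hσ hσ2 hD hK₀ hm1 hm2
    (hc S hS) (h1l S hS) (h1u S hS)
    (h2 S hS) (h3 S hS) (hsq S hS) (by linarith) (by linarith) (he1 S hS) (he2 S hS)
  rw [← hKt, ← hR₀] at main
  refine le_trans ?_ main
  have : S ^ 2 / 2 * ε = S * (Kt + 1) := by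
    calc S ^ 2 / 2 * ε = S / 2 * (S * ε) := by ring
      _ = _ := by rw [hSε]; ring
  nlinarith

end Vale.Agent.P207.H143
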