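import Vale.Agent.P207.H143.Pi0A
import Vale.Agent.P207.H143.Pi0R

/-!
# P207, block PI0: existence of a good truncation time
-/

open Filter Topology MeasureTheory
open scoped InnerProductSpace

noncomputable section

namespace Vale.Agent.P207.H143

open Vale.Agent.P207.H391

section

variable {E : Type*} [NormedAddCommGroup E] [InnerProductSpace ℝ E] (G : Gr E)

/-- upper bound of the primitive of `⟪U_t g, g⟫` from the leaf Darboux equation -/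
theorem J_le {f f' f'' g : E} {D : ℝ} (hD : 0 < D) (h1 : G.D f f') (h2 : G.D f' f'')
    (h0 : ⟪f', g⟫_ℝ = 0)
    (hode : ∀ t, Real.sinh (2 * t) * (⟪G.U t g, g⟫_ℝ + ⟪G.U t f'', g⟫_ℝ) =
      -(2 * D * Real.cosh (2 * t) * ⟪G.U t f', g⟫_ℝ)) {R : ℝ} (hR : 0 ≤ R) :
    G.J g R ≤ -cc G f' g R + 2 * D * (⟪f, g⟫_ℝ - cc G f g R) + Real.log 2 / 2 * ‖g‖ ^ 2 := by
  have h3 := int_p_le (d := D) hD (M := ‖g‖ ^ 2) (by positivity) (y := fun t => -cc G f' g t)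
    (y' := fun t => -cc G f'' g t) (p := G.C g)
    (fun t => (hasDerivAt_cc G h2 g t).neg) (G.cont_C g) (G.abs_C_le g)
    (by simp [cc, G.zero, h0])
    (fun t => by
      have := hode t
      simp only [cc, Gr.C, sub_neg_eq_add]
      rw [this]; ring) hR
  rw [intervalIntegral.integral_neg, int_cc G h1 g R] at h3
  rw [Gr.J]
  linarith

/-- the integral of the pairing of the first root space -/
theorem int_one {f f' g g₁ : E} {L D : ℝ} (h1 : G.D f f') (hg₁ : g₁ = L • f - g) (R : ℝ) :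
    ∫ t in (0:ℝ)..R, (D * ⟪G.U t f, f'⟫_ℝ - ⟪G.U t f, g₁⟫_ℝ) =
      D * (‖f‖ ^ 2 - G.C f R) - (L * G.J f R - KK G f g R) := by
  have cf' : Continuous fun t => ⟪G.U t f, f'⟫_ℝ := (G.cont f).inner continuous_const
  have cg₁ : Continuous fun t => ⟪G.U t f, g₁⟫_ℝ := (G.cont f).inner continuous_const
  rw [intervalIntegral.integral_sub (cmul D cf' _ _)
    (cg₁.intervalIntegrable _ _), intervalIntegral.integral_const_mul, G.int_f' h1, hg₁]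
  have e : ∀ t, ⟪G.U t f, L • f - g⟫_ℝ = L * G.C f t - cc G f g t := by
    intro t; rw [inner_sub_right, inner_smul_right]; rfl
  simp only [e]
  rw [intervalIntegral.integral_sub (cmul L (G.cont_C f) _ _)
    ((cont_cc G f g).intervalIntegrable _ _), intervalIntegral.integral_const_mul]
  rfl

/-- the integral of the pairing of the second root space -/
theorem int_two {f f' f'' g g₂ : E} {D : ℝ} (h1 : G.D f f') (h2 : G.D f' f'')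
    (hg₂ : g₂ = g + f'') (R : ℝ) :
    ∫ t in (0:ℝ)..R, (D / 2 * ⟪G.U t f, f'⟫_ℝ - 1 / 4 * ⟪G.U t f, g₂⟫_ℝ) =
      D / 2 * (‖f‖ ^ 2 - G.C f R) - 1 / 4 * (KK G f g R + cc G f' f R) := by
  have cf' : Continuous fun t => ⟪G.U t f, f'⟫_ℝ := (G.cont f).inner continuous_const
  have cg₂ : Continuous fun t => ⟪G.U t f, g₂⟫_ℝ := (G.cont f).inner continuous_const
  have cf'' : Continuous fun t => ⟪G.U t f, f''⟫_ℝ := (G.cont f).inner continuous_const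
  rw [intervalIntegral.integral_sub (cmul _ cf' _ _) (cmul _ cg₂ _ _),
    intervalIntegral.integral_const_mul, intervalIntegral.integral_const_mul, G.int_f' h1, hg₂]
  have e : ∀ t, ⟪G.U t f, g + f''⟫_ℝ = cc G f g t + ⟪G.U t f, f''⟫_ℝ := by
    intro t; rw [inner_add_right]; rfl
  simp only [e]
  rw [intervalIntegral.integral_add ((cont_cc G f g).intervalIntegrable _ _)
    (cf''.intervalIntegrable _ _), G.int_f'' h1 h2]
  rfl

end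

section

variable {B : Type*} [NormedAddCommGroup B] [InnerProductSpace ℝ B] [CompleteSpace B]

/-- the truncated field, lower bound -/
theorem q_yT_ge (W : Gr B) {κ T v : ℝ} {a b a' b' : B} (ha : W.D a a') (hb : W.D b b')
    (hv : ∫ t in (0:ℝ)..(2 * T), W.c κ a b t = v) :
    1 / 4 * ‖a + b‖ ^ 2 - κ * v - 1 / 4 * (‖a‖ + ‖b‖) ^ 2 * Real.exp (-(2 * κ * T)) ≤
      Gr.q κ ((1 / 2 : ℝ) • (b' - κ • b + a' + κ • a)) (W.yT κ T a b) (W.zT κ T a b) := by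
  rw [W.q_yT ha hb, hv]
  have e1 := W.norm_eps_le κ T a b
  linear_combination (1 / 4 : ℝ) * e1

/-- any field is at most slightly better than the truncated field -/
theorem q_le_val (W : Gr B) {κ T v : ℝ} (hκ : 0 < κ) {a b a' b' y y' : B} (ha : W.D a a')
    (hb : W.D b b') (hy : W.D y y') (hv : ∫ t in (0:ℝ)..(2 * T), W.c κ a b t = v) :
    Gr.q κ ((1 / 2 : ℝ) • (b' - κ • b + a' + κ • a)) y y' -
      (‖a' + κ • a‖ + ‖b' - κ • b‖) ^ 2 / (4 * κ ^ 2) * Real.exp (-(2 * κ * T)) ≤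
      1 / 4 * ‖a + b‖ ^ 2 - κ * v := by
  have e1 := q_le_q_yT W (κ := κ) (T := T) hκ ha hb hy
  rw [W.q_yT ha hb, hv] at e1
  have e2 : 0 ≤ ‖Real.exp (-(κ * T)) • W.U T a + Real.exp (-(κ * T)) • W.U (-T) b‖ ^ 2 := by
    positivity
  linear_combination e1 + (1 / 4 : ℝ) * e2

omit [CompleteSpace B] in
theorem D_zero (W : Gr B) : W.D (0 : B) 0 := by
  unfold Gr.D
  simp only [map_zero]
  exact hasDerivAt_const 0 0

end

variable {E B₁ B₂ : Type*} [NormedAddCommGroup E] [InnerProductSpace ℝ E] [CompleteSpace E]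
  [NormedAddCommGroup B₁] [InnerProductSpace ℝ B₁] [CompleteSpace B₁]
  [NormedAddCommGroup B₂] [InnerProductSpace ℝ B₂] [CompleteSpace B₂]

/-- The nonlocal half of the positivity for functions of leaf degree `0`. -/
theorem exists_T0 (G : Gr E) (W₁ : Gr B₁) (W₂ : Gr B₂) {f f' f'' g g₁ g₂ : E} {L D₁ D₂ : ℝ}
    (h1 : G.D f f') (h2 : G.D f' f'') (hg₁ : g₁ = L • f - g) (hg₂ : g₂ = g + f'')
    (hL0 : 0 < L) (hD₂ : 0 < D₂)
    {a₁ b₁ a₁' b₁' : B₁} (ha₁ : W₁.D a₁ a₁') (hb₁ : W₁.D b₁ b₁')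
    {a₂ b₂ a₂' b₂' : B₂} (ha₂ : W₂.D a₂ a₂') (hb₂ : W₂.D b₂ b₂') (hab : ‖a₂ + b₂‖ = 0)
    (hc₁ : ∀ t, W₁.c 1 a₁ b₁ t = D₁ * ⟪G.U t f, f'⟫_ℝ - ⟪G.U t f, g₁⟫_ℝ)
    (hc₂ : ∀ t, W₂.c 2 a₂ b₂ t = D₂ / 2 * ⟪G.U t f, f'⟫_ℝ - 1 / 4 * ⟪G.U t f, g₂⟫_ℝ)
    (hsym : ∀ t, ⟪G.U t g, f⟫_ℝ = ⟪G.U t f, g⟫_ℝ) (h0 : ⟪f', g⟫_ℝ = 0)
    (hode : ∀ t, Real.sinh (2 * t) * (⟪G.U t g, g⟫_ℝ + ⟪G.U t f'', g⟫_ℝ) =
      -(2 * D₂ * Real.cosh (2 * t) * ⟪G.U t f', g⟫_ℝ))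
    {y y' : B₂} (hy : W₂.D y y') {σ : ℝ} (hσ : 1 / 4 ≤ σ) (hσ2 : (4 * σ - 1) * D₂ ≤ D₁ + D₂)
    {ε : ℝ} (hε : 0 < ε) :
    ∃ T, 0 ≤ T ∧
      (4 * σ - 1) * (Gr.q 2 ((1 / 2 : ℝ) • (b₂' - (2:ℝ) • b₂ + a₂' + (2:ℝ) • a₂)) y y' +
          D₂ * ‖f‖ ^ 2) - σ ^ 2 / L * (2 * D₂ * ⟪f, g⟫_ℝ + Real.log 2 / 2 * ‖g‖ ^ 2) - ε ≤
      Gr.q 1 ((1 / 2 : ℝ) • (b₁' - (1:ℝ) • b₁ + a₁' + (1:ℝ) • a₁)) (W₁.yT 1 T a₁ b₁)
          (W₁.zT 1 T a₁ b₁) - 1 / 4 * ‖a₁ + b₁‖ ^ 2 +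
        Gr.q 2 ((1 / 2 : ℝ) • (b₂' - (2:ℝ) • b₂ + a₂' + (2:ℝ) • a₂)) (W₂.yT 2 T a₂ b₂)
          (W₂.zT 2 T a₂ b₂) + (D₁ + D₂) * ‖f‖ ^ 2 := by
  have i1 : ∀ T, ∫ t in (0:ℝ)..(2 * T), W₁.c 1 a₁ b₁ t =
      D₁ * (‖f‖ ^ 2 - G.C f (2 * T)) - (L * G.J f (2 * T) - KK G f g (2 * T)) := by
    intro T
    simp only [hc₁]
    exact int_one G h1 hg₁ (2 * T)
  have i2 : ∀ T, ∫ t in (0:ℝ)..(2 * T), W₂.c 2 a₂ b₂ t =
      D₂ / 2 * (‖f‖ ^ 2 - G.C f (2 * T)) - 1 / 4 * (KK G f g (2 * T) + cc G f' f (2 * T)) := by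
    intro T
    simp only [hc₂]
    exact int_two G h1 h2 hg₂ (2 * T)
  have q1 := fun T => q_yT_ge W₁ (κ := 1) (T := T) ha₁ hb₁ (i1 T)
  have q2 := fun T => q_yT_ge W₂ (κ := 2) (T := T) ha₂ hb₂ (i2 T)
  have q3 : ∀ {z z' : B₂}, W₂.D z z' → ∀ T, _ := fun hz T =>
    q_le_val W₂ (κ := 2) (T := T) two_pos ha₂ hb₂ hz (i2 T)
  obtain ⟨Z₂, hZ₂⟩ : ∃ Z₂, Z₂ = (1 / 2 : ℝ) • (b₂' - (2:ℝ) • b₂ + a₂' + (2:ℝ) • a₂) := ⟨_, rfl⟩
  obtain ⟨K₀, hK₀⟩ : ∃ K₀, K₀ = (‖a₂' + (2:ℝ) • a₂‖ + ‖b₂' - (2:ℝ) • b₂‖) ^ 2 / (4 * 2 ^ 2) :=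
    ⟨_, rfl⟩
  have hK₀0 : 0 ≤ K₀ := by rw [hK₀]; positivity
  simp only [← hZ₂, ← hK₀, hab] at q1 q2 q3
  rw [← hZ₂]
  have hz0 := D_zero W₂
  have hKlow : ∀ T, 0 ≤ T → -(2 * K₀ + ‖f'‖ * ‖f‖) ≤ KK G f g (2 * T) := by
    intro T hT
    have e1 := q3 hz0 T
    have e2 : Gr.q 2 Z₂ (0 : B₂) 0 = 0 := by simp [Gr.q]
    have e3 := (abs_le.1 (G.abs_C_le f (2 * T))).2
    have e4 := (abs_le.1 (abs_cc_le G f' f (2 * T))).2
    have e5 : Real.exp (-(2 * 2 * T)) ≤ 1 := Real.exp_le_one_iff.2 (by linarith)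
    have e6 := mul_le_mul_of_nonneg_left e5 hK₀0
    have e7 := mul_nonneg hD₂.le (sub_nonneg.2 e3)
    rw [e2] at e1
    linear_combination 2 * e1 + e4 + 2 * e6 + 2 * e7
  have hσ0 : 0 ≤ 4 * σ - 1 := by linarith
  obtain ⟨T, hT, h5⟩ := exists_real (C := fun T => G.C f (2 * T)) (J := fun T => G.J f (2 * T))
    (K := fun T => KK G f g (2 * T)) (Jg := fun T => G.J g (2 * T))
    (k1 := fun T => cc G f' f (2 * T)) (k2 := fun T => cc G f g (2 * T))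
    (k3 := fun T => cc G f' g (2 * T)) (e1 := fun T => Real.exp (-(2 * 1 * T)))
    (e2 := fun T => Real.exp (-(2 * 2 * T))) (L := L) (σ := σ) (D₂ := D₂) (Dd := D₁ + D₂)
    (Q := Gr.q 2 Z₂ y y') (F := ‖f‖ ^ 2) (P := ⟪f, g⟫_ℝ) (Ml := Real.log 2 / 2 * ‖g‖ ^ 2)
    (K₀ := K₀) (A1 := ‖f‖ * ‖f‖) (A2 := 1 / 2 * (2 * K₀ + ‖f'‖ * ‖f‖)) (A3 := ‖f‖ * ‖g‖)
    (m1 := 1 / 4 * (‖a₁‖ + ‖b₁‖) ^ 2) (m2 := 1 / 4 * (‖a₂‖ + ‖b₂‖) ^ 2)
    ((G.cont_C f).comp (continuous_const.mul continuous_id))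
    ((G.cont_J f).comp (continuous_const.mul continuous_id))
    ((cont_KK G f g).comp (continuous_const.mul continuous_id))
    ((G.cont_J g).comp (continuous_const.mul continuous_id))
    ((cont_cc G f' f).comp (continuous_const.mul continuous_id))
    ((cont_cc G f g).comp (continuous_const.mul continuous_id))
    ((cont_cc G f' g).comp (continuous_const.mul continuous_id))
    (by fun_prop) (by fun_prop) hL0 hσ0 hσ2 hD₂.le hK₀0 (by positivity) (by positivity)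
    (by positivity) (by positivity) (by positivity)
    (fun S _ => G.avg_C f S)
    (fun S hS => (abs_le.1 (avg_cc' G h1 f hS.le)).1)
    (fun S hS => (abs_le.1 (avg_cc' G h1 f hS.le)).2)
    (fun S hS => by
      have := avg_cc G hKlow hS.le
      refine le_trans (le_of_eq ?_) this
      ring)
    (fun S hS => (abs_le.1 (avg_cc' G h1 g hS.le)).1)
    (fun S hS => by
      have e1 := G.avg_J (f - (σ / L) • g) hS.le
      have e2 : (∫ T in (0:ℝ)..S, (S - T) * G.J (f - (σ / L) • g) (2 * T)) =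
          Av S (fun T => G.J f (2 * T) - 2 * (σ / L) * KK G f g (2 * T) +
            (σ / L) ^ 2 * G.J g (2 * T)) := by
        unfold Av
        simp only [J_sub G hsym]
      have d1 := G.cont_J f
      have d2 := cont_KK G f g
      have d3 := G.cont_J g
      rw [e2, Av_add (φ := fun T => G.J f (2 * T) - 2 * (σ / L) * KK G f g (2 * T))
        (ψ := fun T => (σ / L) ^ 2 * G.J g (2 * T)) (by fun_prop) (by fun_prop),
        Av_sub (φ := fun T => G.J f (2 * T)) (ψ := fun T => 2 * (σ / L) * KK G f g (2 * T))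
        (by fun_prop) (by fun_prop), Av_cmul, Av_cmul] at e1
      linarith)
    (fun T _ => by
      have e1 := q3 hy T
      show Gr.q 2 Z₂ y y' + D₂ * (‖f‖ ^ 2 - G.C f (2 * T)) - 1 / 2 * cc G f' f (2 * T) -
        K₀ * Real.exp (-(2 * 2 * T)) ≤ 1 / 2 * KK G f g (2 * T)
      linear_combination e1)
    (fun T hT => J_le G hD₂ h1 h2 h0 hode (by linarith : 0 ≤ 2 * T))
    (fun S hS => (Gr.avg_exp one_pos hS.le).trans (le_of_eq (by ring)))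
    (fun S hS => (Gr.avg_exp two_pos hS.le).trans (le_of_eq (by ring))) hε
  refine ⟨T, hT, h5.trans ?_⟩
  have h6 := q1 T
  have h7 := q2 T
  linear_combination h6 + h7

end Vale.Agent.P207.H143
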