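import Vale.Agent.P207.H391.PiAt
import Vale.Agent.P207.H143.Pi0B

/-!
# P207, block PI0: positivity of the nonlocal part for functions of leaf degree `0`

`leaf` : the leaf Darboux identity for the geodesic flow on the ladder algebra.
`PI0_lad` : weights `(1, 1)`, functions `f` with `Δ₂ f = 0`.
-/

open Filter Topology MeasureTheory
open scoped InnerProductSpace

noncomputable section

universe u

namespace Vale.Agent.P207.H143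

open Vale.Agent.P207.H391 Vale.Agent.P207.H662 Vale.Agent.P207.Low

variable {W : Type u} [AddCommGroup W] [Module ℝ W] {L : Lad W}

theorem inn_null {ip : W →ₗ[ℝ] W →ₗ[ℝ] ℝ} {X : W →ₗ[ℝ] W} {κ q : ℝ} (L : Lad1 W ip X κ q)
    (hs : ∀ f g, ip f g = ip g f) {a b : W} (h : L.nsq a b = 0) (c e : W) :
    L.inn a b c e = 0 := by
  have h1 : ∀ r : ℝ, 0 ≤ 2 * r * L.inn a b c e + L.nsq c e * r ^ 2 + 0 := by
    intro r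
    have h2 := L.nsq_nonneg (a + r • c) (b + r • e)
    have e1 : ip (L.Δ c) a = ip (L.Δ a) c := by rw [L.Δ_symm, hs]
    have e2 : ip (L.S e) b = ip (L.S b) e := by rw [L.S_symm, hs]
    have e3 : L.nsq (a + r • c) (b + r • e) = L.nsq a b + 2 * r * L.inn a b c e +
        L.nsq c e * r ^ 2 := by
      unfold Lad1.nsq Lad1.inn
      simp only [map_add, map_smul, LinearMap.add_apply, LinearMap.smul_apply, smul_eq_mul]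
      rw [e1, e2]
      ring
    rw [e3, h] at h2
    linarith
  have h3 : 0 ≤ L.nsq c e := L.nsq_nonneg c e
  by_contra hne
  have h4 := h1 (-(L.inn a b c e) / (L.nsq c e + 1))
  have h5 : 0 < L.nsq c e + 1 := by linarith
  have h6 : 2 * (-(L.inn a b c e) / (L.nsq c e + 1)) * L.inn a b c e + L.nsq c e *
      (-(L.inn a b c e) / (L.nsq c e + 1)) ^ 2 + 0 =
      -((L.inn a b c e) ^ 2 * (L.nsq c e + 2) / (L.nsq c e + 1) ^ 2) := by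
    field_simp
    ring
  rw [h6] at h4
  have h7 : 0 < (L.inn a b c e) ^ 2 * (L.nsq c e + 2) / (L.nsq c e + 1) ^ 2 := by
    have : 0 < (L.inn a b c e) ^ 2 := by positivity
    positivity
  linarith

/-- functions of leaf degree `0` -/
theorem ip_E {ip : W →ₗ[ℝ] W →ₗ[ℝ] ℝ} {X : W →ₗ[ℝ] W} {κ q : ℝ} (L : Lad1 W ip X κ q)
    (hs : ∀ f g, ip f g = ip g f) {h : W} (hh : L.Δ h = 0) (c : W) : ip h (L.E c) = 0 := by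
  have h1 : L.nsq h 0 = 0 := by simp [Lad1.nsq, hh]
  have h2 := inn_null L hs h1 0 c
  simpa [Lad1.inn] using h2

theorem ip_E' {ip : W →ₗ[ℝ] W →ₗ[ℝ] ℝ} {X : W →ₗ[ℝ] W} {κ q : ℝ} (L : Lad1 W ip X κ q)
    (hs : ∀ f g, ip f g = ip g f) (hX : ∀ f g, ip (X f) g = - ip f (X g)) {h : W}
    (hh : L.Δ h = 0) (c : W) : ip c (L.E h) = - (q * ip c (X h)) := by
  rw [hs, L.E_adj, map_add, map_smul, smul_eq_mul, ip_E L hs hh, zero_add, hs c, hX]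
  ring

theorem LamL_symm (L : Lad W) (f g : W) : L.ip (L.LamL f) g = L.ip f (L.LamL g) := by
  rw [Lad.LamL_apply, Lad.LamL_apply, map_add, map_add, map_neg, map_neg, LinearMap.add_apply,
    LinearMap.neg_apply, L.L2.C_symm, L.skew, L.skew, neg_neg]

/-- the leaf Darboux identity -/
theorem leaf (Φ : Flw L) {f h : W} (hf : L.L2.Δ f = 0) (hh : L.L2.Δ h = 0) (t : ℝ) :
    2 * L.d * Real.cosh (2 * t) * L.ip (Φ.U t f) (L.X h) =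
      Real.sinh (2 * t) * L.ip (Φ.U t f) (L.L2.C h) := by
  have k2 : (2:ℝ) ≠ 0 := two_ne_zero
  have q2 : (4:ℝ) = 2 ^ 2 := by norm_num
  have h1 := bet_iso L.L2 k2 q2 L.symm L.skew Φ.zero Φ.add Φ.dΔ2 Φ.dE2 Φ.dS2 t (f, f) (f, f)
  have h2 : bet L.L2 2 (f, f) (f, f) = 0 := by
    simp [bet, Lad1.inn, hf]
  rw [h2, bet, L.L2.inn_self] at h1
  have h3 := inn_null L.L2 L.symm h1 0 h
  have hc : Real.cosh (2 * t) = (Real.exp (2 * t) + Real.exp (-(2 * t))) / 2 := Real.cosh_eq _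
  have hsn : Real.sinh (2 * t) = (Real.exp (2 * t) - Real.exp (-(2 * t))) / 2 := Real.sinh_eq _
  have e1 := ip_E' L.L2 L.symm L.skew hh (Φ.U t f)
  have e2 : L.L2.S h = L.L2.C h := by rw [Lad1.C_apply, hh, smul_zero, sub_zero]
  have e3 : L.ip (L.L2.S (Φ.U t f)) h = L.ip (Φ.U t f) (L.L2.C h) := by
    rw [L.L2.S_symm, e2]
  simp only [Lad1.inn, Wt_apply, map_add, map_sub, map_smul, map_zero, LinearMap.add_apply,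
    LinearMap.sub_apply, LinearMap.smul_apply, LinearMap.zero_apply, smul_eq_mul] at h3
  rw [e1, e3] at h3
  rw [hc, hsn]
  linear_combination h3

/-- **THEOREM PI0**: the nonlocal part of the positivity for functions of leaf degree `0`. -/
theorem PI0_lad (Φ : Flw L) (hUL : ∀ t u, L.LamL (Φ.U t u) = Φ.U t (L.LamL u)) (hd : 0 < L.d)
    {f : W} {lam : ℝ} (hlam : 0 < lam) (hf : L.Lam f = lam • f) (hf2 : L.L2.Δ f = 0) {σ : ℝ}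
    (hσ : 1 / 4 ≤ σ) (hσ2 : (4 * σ - 1) * L.d ≤ L.e + L.d) (F' G' : W) {ε : ℝ} (hε : 0 < ε) :
    ∃ (T : ℝ) (N : ℕ), 0 ≤ T ∧ 0 < N ∧
      (4 * σ - 1) * (L.L2.qf f F' G' + L.d * L.ip f f) -
        σ ^ 2 / lam * (2 * L.d * L.ip f (L.LamL f) +
          Real.log 2 / 2 * L.ip (L.LamL f) (L.LamL f)) - ε ≤
      L.L1.qf f (Φ.Fs N T f) (Φ.Gs N T f) - L.ip (L.L1.Δ f) f +
        L.L2.qf f (Φ.Fs N T f) ((1 / 2 : ℝ) • Φ.Gs N T f) + (L.e + L.d) * L.ip f f := by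
  have k1 : (1:ℝ) ≠ 0 := one_ne_zero
  have k2 : (2:ℝ) ≠ 0 := two_ne_zero
  have q1 : (1:ℝ) = 1 ^ 2 := by norm_num
  have q2 : (4:ℝ) = 2 ^ 2 := by norm_num
  obtain ⟨E, _, _, _, ι₀, G₀, i0, u0, d0⟩ := exists_hilb Φ.frm0
  obtain ⟨B₁, _, _, _, ι₁, G₁, i1, u1, d1⟩ := exists_hilb
    (frm L.L1 k1 q1 L.symm L.skew Φ.zero Φ.add Φ.der Φ.dΔ1 Φ.dE1 Φ.dS1)
  obtain ⟨B₂, _, _, _, ι₂, G₂, i2, u2, d2⟩ := exists_hilb
    (frm L.L2 k2 q2 L.symm L.skew Φ.zero Φ.add Φ.der Φ.dΔ2 Φ.dE2 Φ.dS2)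
  have i0' : ∀ x y, ⟪ι₀ x, ι₀ y⟫_ℝ = L.ip x y := i0
  have u0' : ∀ t x, G₀.U t (ι₀ x) = ι₀ (Φ.U t x) := u0
  have d0' : ∀ x, G₀.D (ι₀ x) (ι₀ (L.X x)) := d0
  have i1' : ∀ x y, ⟪ι₁ x, ι₁ y⟫_ℝ = bet L.L1 1 x y := i1
  have u1' : ∀ t x, G₁.U t (ι₁ x) = ι₁ (Wt Φ.U 1 t x) := u1
  have d1' : ∀ x, G₁.D (ι₁ x) (ι₁ (Yt L.X 1 x)) := d1
  have i2' : ∀ x y, ⟪ι₂ x, ι₂ y⟫_ℝ = bet L.L2 2 x y := i2
  have u2' : ∀ t x, G₂.U t (ι₂ x) = ι₂ (Wt Φ.U 2 t x) := u2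
  have d2' : ∀ x, G₂.D (ι₂ x) (ι₂ (Yt L.X 2 x)) := d2
  have hc : ∀ {κ q k : ℝ} (L' : Lad1 W L.ip L.X κ q) (hk : k ≠ 0) (hκ : κ = k ^ 2)
      {H : Type u} [NormedAddCommGroup H] [InnerProductSpace ℝ H] {ι : W × W →ₗ[ℝ] H}
      {G : Gr H} (hi : ∀ x y, ⟪ι x, ι y⟫_ℝ = bet L' k x y)
      (hu : ∀ t x, G.U t (ι x) = ι (Wt Φ.U k t x)) (t : ℝ),
      G.c k (ι (f, 0)) (ι (0, f)) t =
        q / k * ⟪G₀.U t (ι₀ f), ι₀ (L.X f)⟫_ℝ - 1 / k ^ 2 * ⟪G₀.U t (ι₀ f), ι₀ (L'.C f)⟫_ℝ := by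
    intro κ q k L' hk hκ H _ _ ι G hi hu t
    have e1 := bet_corr L' hk hκ L.symm L.skew f (Φ.U t f)
    rw [u0', i0', i0', ← e1, Gr.c, hu, ← real_inner_smul_left, ← map_smul, Wt_apply, ← hi]
    congr 2
    simp only [Prod.smul_mk, map_zero, smul_zero, smul_smul, ← Real.exp_add]
    simp
  -- the algebraic facts
  have hg2 : L.L2.Δ (L.LamL f) = 0 := by rw [L.D2_LamL, hf2, map_zero]
  have hC2 : ∀ u, L.L2.C u = L.LamL u + L.X (L.X u) := by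
    intro u; rw [Lad.LamL_apply]; abel
  have hg₁ : ι₀ (L.L1.C f) = lam • ι₀ f - ι₀ (L.LamL f) := by
    rw [← map_smul, ← hf, ← map_sub]
    congr 1
    rw [Lad.Lam_apply, Lad.LamL_apply]
    abel
  have hg₂ : ι₀ (L.L2.C f) = ι₀ (L.LamL f) + ι₀ (L.X (L.X f)) := by
    rw [← map_add, hC2]
  have hab : ‖ι₂ (f, 0) + ι₂ (0, f)‖ = 0 := by
    have n2 : ‖ι₂ (f, 0) + ι₂ (0, f)‖ ^ 2 = 0 := by
      rw [← map_add, ← real_inner_self_eq_norm_sq, i2', bet]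
      simp [Lad1.inn, hf2]
    exact pow_eq_zero_iff (two_ne_zero) |>.1 n2
  have hsym' : ∀ t u v, L.ip (Φ.U t (L.LamL u)) v = L.ip (Φ.U t u) (L.LamL v) := by
    intro t u v
    rw [← hUL, LamL_symm]
  have hsym : ∀ t, ⟪G₀.U t (ι₀ (L.LamL f)), ι₀ f⟫_ℝ = ⟪G₀.U t (ι₀ f), ι₀ (L.LamL f)⟫_ℝ := by
    intro t
    rw [u0', u0', i0', i0', hsym']
  have h0 : ⟪ι₀ (L.X f), ι₀ (L.LamL f)⟫_ℝ = 0 := by
    rw [i0']
    have e1 : L.ip (L.X f) (L.LamL f) = - L.ip (L.X f) (L.LamL f) := by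
      conv_lhs => rw [L.skew, L.X_LamL, ← LamL_symm, L.symm]
    linarith
  have hXU : ∀ t u v, L.ip (Φ.U t u) (L.X v) = - L.ip (Φ.U t (L.X u)) v := by
    intro t u v
    have e1 := G₀.skew (Gr.D.U G₀ (d0' u) t) (d0' v)
    rw [u0', u0', i0', i0', L.symm (L.X v), L.symm v] at e1
    exact e1
  have hode : ∀ t, Real.sinh (2 * t) * (⟪G₀.U t (ι₀ (L.LamL f)), ι₀ (L.LamL f)⟫_ℝ +
      ⟪G₀.U t (ι₀ (L.X (L.X f))), ι₀ (L.LamL f)⟫_ℝ) =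
      -(2 * L.d * Real.cosh (2 * t) * ⟪G₀.U t (ι₀ (L.X f)), ι₀ (L.LamL f)⟫_ℝ) := by
    intro t
    rw [u0', u0', u0', i0', i0', i0']
    have e1 := leaf Φ hf2 hg2 t
    have e2 := hsym' t f (L.LamL f)
    rw [hC2, map_add, hXU, hXU, hXU, ← e2] at e1
    linear_combination -e1
  obtain ⟨T, hT, h⟩ := exists_T0 G₀ G₁ G₂ (d0' f) (d0' (L.X f)) hg₁ hg₂ hlam hd
    (d1' (f, 0)) (d1' (0, f)) (d2' (f, 0)) (d2' (0, f)) hab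
    (fun t => by rw [hc L.L1 k1 q1 i1' u1']; ring)
    (fun t => by rw [hc L.L2 k2 q2 i2' u2']; ring) hsym h0 hode
    (d2' ((1 / 2 : ℝ) • (F' - (2:ℝ) • G'), (1 / 2 : ℝ) • (F' + (2:ℝ) • G')))
    hσ hσ2 (half_pos hε)
  rw [q_eq L.L2 k2 q2 i2' f F' G'] at h
  have t1 := tendsto_qf L.L1 k1 q1 G₁ i1' u1' d1' hT f
  have t2 := tendsto_qf L.L2 k2 q2 G₂ i2' u2' d2' hT f
  have ht := t1.add t2
  -- the norms
  have n0 : ‖ι₀ f‖ ^ 2 = L.ip f f := by rw [← real_inner_self_eq_norm_sq, i0']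
  have n1 : ‖ι₁ (f, 0) + ι₁ (0, f)‖ ^ 2 = 4 * L.ip (L.L1.Δ f) f := by
    rw [← map_add, ← real_inner_self_eq_norm_sq, i1', bet]
    simp only [Prod.mk_add_mk, add_zero, zero_add, sub_self, smul_zero, Lad1.inn, map_add,
      map_zero, LinearMap.add_apply]
    ring
  have n3 : ‖ι₀ (L.LamL f)‖ ^ 2 = L.ip (L.LamL f) (L.LamL f) := by
    rw [← real_inner_self_eq_norm_sq, i0']
  rw [n0, n1, n3, i0'] at h
  have hlt : (4 * σ - 1) * (L.L2.qf f F' G' + L.d * L.ip f f) -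
        σ ^ 2 / lam * (2 * L.d * L.ip f (L.LamL f) +
          Real.log 2 / 2 * L.ip (L.LamL f) (L.LamL f)) - ε + L.ip (L.L1.Δ f) f -
        (L.e + L.d) * L.ip f f <
      Gr.q 1 ((1 / 2 : ℝ) • (ι₁ (Yt L.X 1 (0, f)) - (1:ℝ) • ι₁ (0, f) + ι₁ (Yt L.X 1 (f, 0)) +
          (1:ℝ) • ι₁ (f, 0))) (G₁.yT 1 T (ι₁ (f, 0)) (ι₁ (0, f))) (G₁.zT 1 T (ι₁ (f, 0)) (ι₁ (0, f))) +
        Gr.q 2 ((1 / 2 : ℝ) • (ι₂ (Yt L.X 2 (0, f)) - (2:ℝ) • ι₂ (0, f) + ι₂ (Yt L.X 2 (f, 0)) +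
          (2:ℝ) • ι₂ (f, 0))) (G₂.yT 2 T (ι₂ (f, 0)) (ι₂ (0, f)))
          (G₂.zT 2 T (ι₂ (f, 0)) (ι₂ (0, f))) := by
    have : 0 < ε := hε
    linear_combination h + (1 / 2 : ℝ) * this
  have hev := (ht.eventually (lt_mem_nhds hlt)).and (eventually_gt_atTop 0)
  obtain ⟨N, hN, hN0⟩ := hev.exists
  refine ⟨T, N, hT, hN0, ?_⟩
  have e1 : ((1:ℝ)⁻¹ • -∑ j ∈ Finset.range N, ((1 / 2 : ℝ) * (T / N)) •
        (Φ.U (j * (T / N)) f + Φ.U (-(j * (T / N))) f)) = Φ.Gs N T f := by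
    rw [inv_one, one_smul]; rfl
  have e2 : ((2:ℝ)⁻¹ • -∑ j ∈ Finset.range N, ((1 / 2 : ℝ) * (T / N)) •
        (Φ.U (j * (T / N)) f + Φ.U (-(j * (T / N))) f)) = (1 / 2 : ℝ) • Φ.Gs N T f := by
    rw [show (2:ℝ)⁻¹ = 1 / 2 by norm_num]; rfl
  have e3 : (∑ j ∈ Finset.range N, ((1 / 2 : ℝ) * (T / N)) •
        (Φ.U (j * (T / N)) f - Φ.U (-(j * (T / N))) f)) = Φ.Fs N T f := rfl
  rw [e1, e2, e3] at hN
  linear_combination hN.le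

/-- theorem PI0 in the form of block LOW, sharp constant -/
theorem pi0_log (Φ : Flw L) (hUL : ∀ t u, L.LamL (Φ.U t u) = Φ.U t (L.LamL u)) (hd : 0 < L.d)
    {f : W} {lam : ℝ} (hlam : 0 < lam) (hf : L.Lam f = lam • f) (hf2 : L.L2.Δ f = 0) {σ : ℝ}
    (hσ : 1 / 4 ≤ σ) (hσ2 : (4 * σ - 1) * L.d ≤ L.e + L.d) {M : Submodule ℝ W}
    (hM : ∀ t, ∀ u ∈ M, Φ.U t u ∈ M) (hfM : f ∈ M) (F' G' : W) {ε : ℝ} (hε : 0 < ε) :
    ∃ F₁ ∈ M, ∃ G₁ ∈ M, ∃ F₂ ∈ M, ∃ G₂ ∈ M,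
      (4 * σ - 1) * (L.L2.qf f F' G' + L.d * L.ip f f) -
        σ ^ 2 / lam * (2 * L.d * L.ip f (L.LamL f) +
          Real.log 2 / 2 * L.ip (L.LamL f) (L.LamL f)) - ε ≤ PP L f F₁ G₁ F₂ G₂ := by
  obtain ⟨T, N, _, _, h⟩ := PI0_lad Φ hUL hd hlam hf hf2 hσ hσ2 F' G' hε
  refine ⟨_, Φ.Fs_mem hM hfM N T, _, Φ.Gs_mem hM hfM N T, _, Φ.Fs_mem hM hfM N T,
    _, M.smul_mem (1 / 2 : ℝ) (Φ.Gs_mem hM hfM N T), ?_⟩
  have e : L.ip (L.L2.Δ f) f = 0 := by simp [hf2]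
  unfold PP P1 P2
  rw [e]
  linear_combination h

/-- theorem PI0 with the constant `3/8` -/
theorem pi0_38 (Φ : Flw L) (hUL : ∀ t u, L.LamL (Φ.U t u) = Φ.U t (L.LamL u)) (hd : 0 < L.d)
    {f : W} {lam : ℝ} (hlam : 0 < lam) (hf : L.Lam f = lam • f) (hf2 : L.L2.Δ f = 0) {σ : ℝ}
    (hσ : 1 / 4 ≤ σ) (hσ2 : (4 * σ - 1) * L.d ≤ L.e + L.d) {M : Submodule ℝ W}
    (hM : ∀ t, ∀ u ∈ M, Φ.U t u ∈ M) (hfM : f ∈ M) (F' G' : W) {ε : ℝ} (hε : 0 < ε) :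
    ∃ F₁ ∈ M, ∃ G₁ ∈ M, ∃ F₂ ∈ M, ∃ G₂ ∈ M,
      (4 * σ - 1) * (L.L2.qf f F' G' + L.d * L.ip f f) -
        σ ^ 2 / lam * (2 * L.d * L.ip f (L.LamL f) +
          3 / 8 * L.ip (L.LamL f) (L.LamL f)) - ε ≤ PP L f F₁ G₁ F₂ G₂ := by
  obtain ⟨F₁, h1, G₁, h2, F₂, h3, G₂, h4, h⟩ := pi0_log Φ hUL hd hlam hf hf2 hσ hσ2 hM hfM F' G' hε
  refine ⟨F₁, h1, G₁, h2, F₂, h3, G₂, h4, le_trans ?_ h⟩
  have h5 : Real.log 2 / 2 ≤ 3 / 8 := by linarith [Real.log_two_lt_d9]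
  have h6 := mul_le_mul_of_nonneg_left (mul_le_mul_of_nonneg_right h5 (L.nonneg (L.LamL f)))
    (by positivity : 0 ≤ σ ^ 2 / lam)
  linear_combination h6

/-- theorem PI0 with the constant `d / (2 (d + 1))`, `d ≥ 3` -/
theorem pi0_d (Φ : Flw L) (hUL : ∀ t u, L.LamL (Φ.U t u) = Φ.U t (L.LamL u)) (hd : 3 ≤ L.d)
    {f : W} {lam : ℝ} (hlam : 0 < lam) (hf : L.Lam f = lam • f) (hf2 : L.L2.Δ f = 0) {σ : ℝ}
    (hσ : 1 / 4 ≤ σ) (hσ2 : (4 * σ - 1) * L.d ≤ L.e + L.d) {M : Submodule ℝ W}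
    (hM : ∀ t, ∀ u ∈ M, Φ.U t u ∈ M) (hfM : f ∈ M) (F' G' : W) {ε : ℝ} (hε : 0 < ε) :
    ∃ F₁ ∈ M, ∃ G₁ ∈ M, ∃ F₂ ∈ M, ∃ G₂ ∈ M,
      (4 * σ - 1) * (L.L2.qf f F' G' + L.d * L.ip f f) -
        σ ^ 2 / lam * (2 * L.d * L.ip f (L.LamL f) +
          L.d / (2 * (L.d + 1)) * L.ip (L.LamL f) (L.LamL f)) - ε ≤ PP L f F₁ G₁ F₂ G₂ := by
  obtain ⟨F₁, h1, G₁, h2, F₂, h3, G₂, h4, h⟩ := pi0_38 Φ hUL (by linarith) hlam hf hf2 hσ hσ2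
    hM hfM F' G' hε
  refine ⟨F₁, h1, G₁, h2, F₂, h3, G₂, h4, le_trans ?_ h⟩
  have h5 : 3 / 8 ≤ L.d / (2 * (L.d + 1)) := by
    rw [le_div_iff₀ (by linarith)]
    linarith
  have h6 := mul_le_mul_of_nonneg_left (mul_le_mul_of_nonneg_right h5 (L.nonneg (L.LamL f)))
    (by positivity : 0 ≤ σ ^ 2 / lam)
  linear_combination h6

end Vale.Agent.P207.H143
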