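import Vale.Agent.P207.H391.PiC
import Vale.Agent.P207.H143.Ode

/-!
# P207, block PI0: averages for functions of leaf degree `0`
-/

open Filter Topology MeasureTheory
open scoped InnerProductSpace

noncomputable section

namespace Vale.Agent.P207.H143

open Vale.Agent.P207.H391

section one

variable {H : Type*} [NormedAddCommGroup H] [InnerProductSpace ℝ H] (G : Gr H)

/-- the cross correlation -/
def cc (f g : H) (t : ℝ) : ℝ := ⟪G.U t f, g⟫_ℝ

/-- its primitive -/
def KK (f g : H) (R : ℝ) : ℝ := ∫ t in (0:ℝ)..R, cc G f g t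

theorem cont_cc (f g : H) : Continuous (cc G f g) := (G.cont f).inner continuous_const

theorem abs_cc_le (f g : H) (t : ℝ) : |cc G f g t| ≤ ‖f‖ * ‖g‖ := by
  have h := abs_real_inner_le_norm (G.U t f) g
  rw [G.norm] at h
  exact h

theorem hasDerivAt_KK (f g : H) (R : ℝ) : HasDerivAt (KK G f g) (cc G f g R) R :=
  intervalIntegral.integral_hasDerivAt_right ((cont_cc G f g).intervalIntegrable _ _)
    ((cont_cc G f g).stronglyMeasurableAtFilter _ _) (cont_cc G f g).continuousAt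

theorem cont_KK (f g : H) : Continuous (KK G f g) :=
  continuous_iff_continuousAt.2 fun R => (hasDerivAt_KK G f g R).continuousAt

theorem hasDerivAt_cc {f f' : H} (h : G.D f f') (g : H) (t : ℝ) :
    HasDerivAt (cc G f g) (cc G f' g t) t := by
  have h1 := (G.hasDerivAt h t).inner ℝ (hasDerivAt_const t g)
  exact h1.congr_deriv (by simp [cc])

theorem int_cc {f f' : H} (h : G.D f f') (g : H) (R : ℝ) :
    ∫ t in (0:ℝ)..R, cc G f' g t = cc G f g R - ⟪f, g⟫_ℝ := by
  rw [intervalIntegral.integral_eq_sub_of_hasDerivAt (fun t _ => hasDerivAt_cc G h g t)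
    ((cont_cc G f' g).intervalIntegrable _ _)]
  simp [cc, G.zero]

theorem J_sub {f g : H} (hsym : ∀ t, ⟪G.U t g, f⟫_ℝ = ⟪G.U t f, g⟫_ℝ) (τ R : ℝ) :
    G.J (f - τ • g) R = G.J f R - 2 * τ * KK G f g R + τ ^ 2 * G.J g R := by
  have e : ∀ t, G.C (f - τ • g) t = G.C f t - 2 * τ * cc G f g t + τ ^ 2 * G.C g t := by
    intro t
    have := hsym t
    simp only [Gr.C, cc, map_sub, map_smul, inner_sub_left, inner_sub_right, inner_smul_left,
      inner_smul_right, conj_trivial]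
    rw [this]; ring
  simp only [Gr.J, e, KK]
  rw [intervalIntegral.integral_add, intervalIntegral.integral_sub,
    intervalIntegral.integral_const_mul, intervalIntegral.integral_const_mul]
  · exact (G.cont_C f).intervalIntegrable _ _
  · exact cmul _ (cont_cc G f g) _ _
  · exact ((G.cont_C f).sub (continuous_const.mul (cont_cc G f g))).intervalIntegrable _ _
  · exact cmul _ (G.cont_C g) _ _

/-- average of the derivative of a cross correlation -/
theorem avg_cc' {f f' : H} (h : G.D f f') (g : H) {S : ℝ} (hS : 0 ≤ S) :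
    |∫ T in (0:ℝ)..S, (S - T) * cc G f' g (2 * T)| ≤ S * (‖f‖ * ‖g‖) := by
  have h1 : ∀ T ∈ Set.uIcc 0 S, HasDerivAt
      (fun T => (S - T) * (1 / 2 * cc G f g (2 * T)) + 1 / 4 * KK G f g (2 * T))
      ((S - T) * cc G f' g (2 * T)) T := by
    intro T _
    have a1 := (Gr.dS S T).mul ((Gr.comp_two (hasDerivAt_cc G h g (2 * T))).const_mul (1 / 2))
    have a2 := (Gr.comp_two (hasDerivAt_KK G f g (2 * T))).const_mul (1 / 4)
    refine (a1.add a2).congr_deriv ?_
    ring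
  have hc : Continuous fun T => (S - T) * cc G f' g (2 * T) := by
    have := cont_cc G f' g
    fun_prop
  rw [intervalIntegral.integral_eq_sub_of_hasDerivAt h1 (hc.intervalIntegrable _ _)]
  have h0 := abs_cc_le G f g 0
  have h2 : |KK G f g (2 * S)| ≤ 2 * S * (‖f‖ * ‖g‖) := by
    have h3 : ‖∫ t in (0:ℝ)..(2 * S), cc G f g t‖ ≤ ‖f‖ * ‖g‖ * |2 * S - 0| :=
      intervalIntegral.norm_integral_le_of_norm_le_const fun t _ => abs_cc_le G f g t
    rw [sub_zero, abs_of_nonneg (by linarith : 0 ≤ 2 * S), Real.norm_eq_abs] at h3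
    rw [KK]; linarith
  have h5 : KK G f g 0 = 0 := by simp [KK]
  simp only [mul_zero, h5, sub_zero, sub_self, zero_mul, zero_add, add_zero]
  have h6 := abs_le.1 h0
  have h7 := abs_le.1 h2
  have h8 : 0 ≤ ‖f‖ * ‖g‖ := by positivity
  rw [abs_le]
  constructor <;> nlinarith [mul_le_mul_of_nonneg_left h6.1 hS, mul_le_mul_of_nonneg_left h6.2 hS]

/-- average of a cross correlation with primitive bounded below -/
theorem avg_cc {f g : H} {K : ℝ} (hK : ∀ T, 0 ≤ T → -K ≤ KK G f g (2 * T)) {S : ℝ}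
    (hS : 0 ≤ S) : -(1 / 2 * K * S) ≤ ∫ T in (0:ℝ)..S, (S - T) * cc G f g (2 * T) := by
  have hKK : Continuous fun x => KK G f g (2 * x) := by
    have := cont_KK G f g
    fun_prop
  have h1 : ∀ T ∈ Set.uIcc 0 S, HasDerivAt
      (fun T => (S - T) * (1 / 2 * KK G f g (2 * T)) + 1 / 2 * ∫ x in (0:ℝ)..T, KK G f g (2 * x))
      ((S - T) * cc G f g (2 * T)) T := by
    intro T _
    have a1 := (Gr.dS S T).mul ((Gr.comp_two (hasDerivAt_KK G f g (2 * T))).const_mul (1 / 2))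
    have a2 := (intervalIntegral.integral_hasDerivAt_right (hKK.intervalIntegrable 0 T)
      (hKK.stronglyMeasurableAtFilter _ _) hKK.continuousAt).const_mul (1 / 2 : ℝ)
    refine (a1.add a2).congr_deriv ?_
    ring
  have hc : Continuous fun T => (S - T) * cc G f g (2 * T) := by
    have := cont_cc G f g
    fun_prop
  rw [intervalIntegral.integral_eq_sub_of_hasDerivAt h1 (hc.intervalIntegrable _ _)]
  have h5 : KK G f g 0 = 0 := by simp [KK]
  have h6 : ∫ x in (0:ℝ)..S, (-K) ≤ ∫ x in (0:ℝ)..S, KK G f g (2 * x) :=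
    intervalIntegral.integral_mono_on hS (by simp) (hKK.intervalIntegrable _ _)
      fun x hx => hK x hx.1
  rw [intervalIntegral.integral_const, smul_eq_mul] at h6
  simp only [mul_zero, h5, sub_zero, sub_self, zero_mul, zero_add,
    intervalIntegral.integral_same] at h6 ⊢
  linarith

variable [CompleteSpace H]

/-- the truncated exact field is nearly optimal -/
theorem q_le_q_yT {κ T : ℝ} (hκ : 0 < κ) {a b a' b' y y' : H} (ha : G.D a a') (hb : G.D b b')
    (hy : G.D y y') :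
    Gr.q κ ((1 / 2 : ℝ) • (b' - κ • b + a' + κ • a)) y y' ≤
      Gr.q κ ((1 / 2 : ℝ) • (b' - κ • b + a' + κ • a)) (G.yT κ T a b) (G.zT κ T a b) +
        Real.exp (-(2 * κ * T)) * ((‖a' + κ • a‖ + ‖b' - κ • b‖) ^ 2 / (4 * κ ^ 2)) := by
  set Z := (1 / 2 : ℝ) • (b' - κ • b + a' + κ • a) with hZ
  set e := Real.exp (-(κ * T)) with he
  set er := (1 / 2 : ℝ) • (e • (G.U T (a' + κ • a) + G.U (-T) (b' - κ • b))) with her
  set v := y - G.yT κ T a b with hv
  set v' := y' - G.zT κ T a b with hv'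
  have dv : G.D v v' := by
    have h := HasDerivAt.sub (hy : HasDerivAt _ _ _) (G.D_yT κ T a b : HasDerivAt _ _ _)
    have e2 : (fun s => G.U s v) = ((fun s => G.U s y) - fun s => G.U s (G.yT κ T a b)) := by
      funext s; simp [hv]
    unfold Gr.D
    rw [e2]; exact h
  -- the weak Euler-Lagrange equation
  have s1 := G.skew dv (Gr.D.U G ha T)
  have s2 := G.skew dv (Gr.D.U G hb (-T))
  have s3 := G.skew dv ha
  have s4 := G.skew dv hb
  have s5 := G.skew dv (G.D_al κ T a)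
  have s6 := G.skew dv (G.D_be κ T b)
  have EL : ⟪G.zT κ T a b, v'⟫_ℝ + κ ^ 2 * ⟪G.yT κ T a b, v⟫_ℝ = ⟪Z, v⟫_ℝ - ⟪er, v⟫_ℝ := by
    rw [Gr.zT, Gr.yT, hZ, her, ← he]
    rw [← he] at s5 s6
    simp only [inner_add_left, inner_sub_left, inner_smul_left, inner_neg_left, map_add, map_sub,
      map_smul, conj_trivial] at s1 s2 s3 s4 s5 s6 ⊢
    linear_combination (1 / 2) * e * s1 + (1 / 2) * e * s2 - (1 / 2) * s3 - (1 / 2) * s4 +
      (1 / 2) * κ * s5 + (1 / 2) * κ * s6
  have e1 : Gr.q κ Z y y' = Gr.q κ Z (G.yT κ T a b) (G.zT κ T a b) + 2 * ⟪er, v⟫_ℝ -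
      ⟪v', v'⟫_ℝ - κ ^ 2 * ⟪v, v⟫_ℝ := by
    have hy1 : y = G.yT κ T a b + v := by rw [hv]; abel
    have hy2 : y' = G.zT κ T a b + v' := by rw [hv']; abel
    rw [hy1, hy2]
    have c1 : ⟪v, G.yT κ T a b⟫_ℝ = ⟪G.yT κ T a b, v⟫_ℝ := real_inner_comm _ _
    have c2 : ⟪v', G.zT κ T a b⟫_ℝ = ⟪G.zT κ T a b, v'⟫_ℝ := real_inner_comm _ _
    simp only [Gr.q, inner_add_left, inner_add_right]
    rw [c1, c2]
    linear_combination -2 * EL
  have e2 : 2 * ⟪er, v⟫_ℝ - κ ^ 2 * ⟪v, v⟫_ℝ ≤ ‖er‖ ^ 2 / κ ^ 2 := by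
    clear_value er
    have h1 : 0 ≤ ‖er - κ ^ 2 • v‖ ^ 2 := by positivity
    rw [norm_sub_sq_real, inner_smul_right, norm_smul, Real.norm_eq_abs,
      abs_of_pos (by positivity : 0 < κ ^ 2)] at h1
    rw [real_inner_self_eq_norm_sq, le_div_iff₀ (by positivity)]
    nlinarith
  have e3 : ‖er‖ ≤ 1 / 2 * e * (‖a' + κ • a‖ + ‖b' - κ • b‖) := by
    rw [her, norm_smul, norm_smul, Real.norm_eq_abs, Real.norm_eq_abs,
      abs_of_pos (by norm_num : (0:ℝ) < 1 / 2), abs_of_pos (Real.exp_pos _)]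
    have := norm_add_le (G.U T (a' + κ • a)) (G.U (-T) (b' - κ • b))
    rw [G.norm, G.norm] at this
    have h2 : 0 ≤ e := (Real.exp_pos _).le
    nlinarith
  have e4 : ‖er‖ ^ 2 / κ ^ 2 ≤ Real.exp (-(2 * κ * T)) *
      ((‖a' + κ • a‖ + ‖b' - κ • b‖) ^ 2 / (4 * κ ^ 2)) := by
    have h2 : Real.exp (-(2 * κ * T)) = e ^ 2 := by
      rw [he, ← Real.exp_nat_mul]; congr 1; push_cast; ring
    have h3 := pow_le_pow_left₀ (norm_nonneg _) e3 2
    rw [h2, div_le_iff₀ (by positivity)]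
    refine h3.trans (le_of_eq ?_)
    field_simp
    ring
  have e5 : 0 ≤ ⟪v', v'⟫_ℝ := real_inner_self_nonneg
  rw [e1]
  linarith

end one

end Vale.Agent.P207.H143
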