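import Vale.Agent.P207.H143.Pi0

/-!
# P207, block PI0: moments of functions of leaf degree `0` and the value of the leaf field

`M1 = ⟨f, Λ_L f⟩`, `M2 = |Λ_L f|²`:
`(d + 1) |X f|² = M1`, `(d + 1) ⟨X f, X Λ_L f⟩ = M2`, `(d + 1) (d + 3) |X X f|² = 3 M2 + 8 d M1`,
`qf₂ f 0 (-c f) = d (2 c M1 / (d + 1) - c² (M2 + 8 (d + 2) M1) / ((d + 1) (d + 3)))`.
-/

noncomputable section

universe u

namespace Vale.Agent.P207.H143

open Vale.Agent.P207.H662 Vale.Agent.P207.Low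

variable {W : Type u} [AddCommGroup W] [Module ℝ W] (L : Lad W)

/-- `X f` has leaf degree `1` -/
theorem ip_ΔX {f : W} (hf : L.L2.Δ f = 0) (c : W) :
    L.ip c (L.L2.Δ (L.X f)) = L.d * L.ip c (L.X f) := by
  have h1 := congrArg (L.ip c) (L.L2.X_Δ f)
  rw [hf, map_zero, map_zero] at h1
  simp only [map_add, map_smul, smul_eq_mul] at h1
  have h2 := ip_E' L.L2 L.symm L.skew hf c
  rw [h2] at h1
  linarith

/-- `⟨Λ_L f, g⟩ = (d + 1) ⟨X f, X g⟩` for leaf degree `0` -/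
theorem ip_LamL {f g : W} (hf : L.L2.Δ f = 0) (hg : L.L2.Δ g = 0) :
    L.ip (L.LamL f) g = (L.d + 1) * L.ip (L.X f) (L.X g) := by
  have e1 : L.L2.C f = L.X (L.L2.E f) - L.L2.E (L.X f) := by
    rw [Lad1.C_apply, L.L2.X_E, hf]; module
  have e2 : L.ip (L.L2.E f) (L.X g) = -(L.d * L.ip (L.X f) (L.X g)) := by
    rw [L.symm, ip_E' L.L2 L.symm L.skew hf, L.symm]
  have e3 : L.ip (L.L2.E (L.X f)) g = 0 := by
    rw [L.symm]; exact ip_E L.L2 L.symm hg _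
  have e4 := L.skew (L.X f) g
  have e5 := L.skew (L.L2.E f) g
  rw [Lad.LamL_apply, e1, map_add, map_neg, map_sub, LinearMap.add_apply, LinearMap.neg_apply,
    LinearMap.sub_apply, e4, e5, e2, e3]
  ring

/-- `g = Λ_L f` satisfies `Δ₂ X X f = 2 g + 2 (d + 1) X X f` weakly -/
theorem ip_ΔXX {f : W} (hf : L.L2.Δ f = 0) (c : W) :
    L.ip c (L.L2.Δ (L.X (L.X f))) = 2 * L.ip c (L.LamL f) +
      2 * (L.d + 1) * L.ip c (L.X (L.X f)) := by
  have h1 := congrArg (L.ip c) (L.C2_eq f)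
  have h2 : L.ip c (L.LamL f) = - L.ip c (L.X (L.X f)) + L.ip c (L.L2.C f) := by
    rw [Lad.LamL_apply, map_add, map_neg]
  have h3 : L.ip c (L.X (L.L2.Δ (L.X f))) = L.d * L.ip c (L.X (L.X f)) := by
    have e1 := L.skew c (L.L2.Δ (L.X f))
    have e2 := L.skew c (L.X f)
    have e3 := ip_ΔX L hf (L.X c)
    rw [e3, e2] at e1
    linarith
  rw [hf] at h1
  simp only [map_zero, map_add, map_smul, map_neg, smul_eq_mul, zero_sub, sub_zero,
    smul_zero] at h1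
  rw [h3] at h1
  linarith

/-- `(d + 1) (d + 3) |X X f|² = 3 M2 + 8 d M1` -/
theorem nXX {f : W} (hf : L.L2.Δ f = 0) :
    (L.d + 1) * (L.d + 3) * L.ip (L.X (L.X f)) (L.X (L.X f)) =
      3 * L.ip (L.LamL f) (L.LamL f) + 8 * L.d * L.ip f (L.LamL f) := by
  have hg : L.L2.Δ (L.LamL f) = 0 := by rw [L.D2_LamL, hf, map_zero]
  have m1 := ip_LamL L hf hf
  have m2 := ip_LamL L hf hg
  have s1 : L.ip (L.LamL f) f = L.ip f (L.LamL f) := L.symm _ _
  rw [s1] at m1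
  -- `⟨Λ_L X f, X f⟩ = M2 / (d + 1)`
  have a1 : L.ip (L.X f) (L.X (L.LamL f)) =
      L.ip (L.X (L.X f)) (L.X (L.X f)) + L.ip (L.X f) (L.L2.C (L.X f)) := by
    rw [L.X_LamL, Lad.LamL_apply, map_add, map_neg]
    have := L.skew (L.X f) (L.X (L.X f))
    linarith
  have a2 : L.ip (L.X f) (L.L2.C (L.X f)) = -(L.d * L.ip (L.X (L.X f)) (L.X (L.X f))) +
      L.ip (L.X (L.X f)) (L.L2.Δ (L.X (L.X f))) - 8 * (L.d * L.ip (L.X f) (L.X f)) := by
    have h1 := congrArg (L.ip (L.X f)) (L.C2_eq (L.X f))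
    simp only [map_add, map_sub, map_smul, smul_eq_mul] at h1
    have b1 : L.ip (L.X f) (L.X (L.X (L.L2.Δ (L.X f)))) =
        -(L.d * L.ip (L.X (L.X f)) (L.X (L.X f))) := by
      have c1 := L.skew (L.X f) (L.X (L.L2.Δ (L.X f)))
      have c2 := L.skew (L.X (L.X f)) (L.L2.Δ (L.X f))
      have c3 := ip_ΔX L hf (L.X (L.X (L.X f)))
      have c4 := L.skew (L.X (L.X f)) (L.X f)
      rw [c3] at c2
      rw [c4] at c2
      linarith
    have b2 : L.ip (L.X f) (L.X (L.L2.Δ (L.X (L.X f)))) =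
        - L.ip (L.X (L.X f)) (L.L2.Δ (L.X (L.X f))) := by
      have c1 := L.skew (L.X f) (L.L2.Δ (L.X (L.X f)))
      linarith
    have b3 : L.ip (L.X f) (L.L2.Δ (L.X (L.X (L.X f)))) =
        -(L.d * L.ip (L.X (L.X f)) (L.X (L.X f))) := by
      have c1 := L.L2.Δ_symm (L.X f) (L.X (L.X (L.X f)))
      have c2 := ip_ΔX L hf (L.X (L.X (L.X f)))
      have c3 := L.symm (L.L2.Δ (L.X f)) (L.X (L.X (L.X f)))
      have c4 := L.skew (L.X (L.X f)) (L.X f)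
      rw [c4] at c2
      linarith
    have b4 := ip_ΔX L hf (L.X f)
    rw [b1, b2, b3, b4] at h1
    linarith
  have a3 := ip_ΔXX L hf (L.X (L.X f))
  have a4 : L.ip (L.X (L.X f)) (L.LamL f) = - L.ip (L.X f) (L.X (L.LamL f)) := L.skew _ _
  rw [a4] at a3
  rw [a2, a3] at a1
  linear_combination (-8 * L.d) * m1 - 3 * m2 - (L.d + 1) * a1

/-- the value of the leaf field `- c H₂ f` -/
theorem qf2_leaf {f : W} (hf : L.L2.Δ f = 0) (c : ℝ) :
    L.L2.qf f 0 (-c • f) = 2 * c * L.d * L.ip (L.X f) (L.X f) -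
      c ^ 2 * (L.ip (L.L2.S (L.X f)) (L.X f) + 4 * L.d * L.ip (L.X f) (L.X f)) := by
  have h1 := L.L2.master L.symm L.skew f 0 (-c • f)
  have e1 : L.ip f (L.L2.C f) = L.d * L.ip (L.X f) (L.X f) := by
    have := ip_LamL L hf hf
    have h2 : L.ip (L.LamL f) f = - L.ip (L.X (L.X f)) f + L.ip (L.L2.C f) f := by
      rw [Lad.LamL_apply, map_add, map_neg]; rfl
    have h3 := L.skew (L.X f) f
    have h4 := L.symm (L.L2.C f) f
    linarith
  have e2 := ip_E L.L2 L.symm hf (L.X f)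
  rw [h1]
  simp only [Lad1.nsq, map_zero, add_zero, hf, map_smul, LinearMap.smul_apply,
    LinearMap.zero_apply, smul_eq_mul, e1, e2]
  ring

/-- **the value of the leaf field in terms of the moments** -/
theorem qf2_val {f : W} (hf : L.L2.Δ f = 0) (hd : 0 < L.d) (c : ℝ) :
    L.L2.qf f 0 (-c • f) = L.d * (2 * c * L.ip f (L.LamL f) / (L.d + 1) -
      c ^ 2 * (L.ip (L.LamL f) (L.LamL f) + 8 * (L.d + 2) * L.ip f (L.LamL f)) /
        ((L.d + 1) * (L.d + 3))) := by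
  have hg : L.L2.Δ (L.LamL f) = 0 := by rw [L.D2_LamL, hf, map_zero]
  have m1 := ip_LamL L hf hf
  have m2 := ip_LamL L hf hg
  have s1 : L.ip (L.LamL f) f = L.ip f (L.LamL f) := L.symm _ _
  rw [s1] at m1
  have m3 := nXX L hf
  have a1 : L.ip (L.X f) (L.X (L.LamL f)) =
      L.ip (L.X (L.X f)) (L.X (L.X f)) + L.ip (L.X f) (L.L2.C (L.X f)) := by
    rw [L.X_LamL, Lad.LamL_apply, map_add, map_neg]
    have := L.skew (L.X f) (L.X (L.X f))
    linarith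
  have a2 : L.ip (L.X f) (L.L2.C (L.X f)) = L.ip (L.L2.S (L.X f)) (L.X f) -
      4 * (L.d * L.ip (L.X f) (L.X f)) := by
    rw [Lad1.C_apply, map_sub, map_smul, smul_eq_mul, ip_ΔX L hf, L.symm]
  rw [qf2_leaf L hf]
  rw [a2] at a1
  have h1 : L.d + 1 ≠ 0 := by positivity
  have h3 : L.d + 3 ≠ 0 := by positivity
  have x1 : L.ip (L.X f) (L.X f) = L.ip f (L.LamL f) / (L.d + 1) := by
    rw [m1]; field_simp
  have x2 : L.ip (L.X f) (L.X (L.LamL f)) = L.ip (L.LamL f) (L.LamL f) / (L.d + 1) := by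
    rw [m2]; field_simp
  have x3 : L.ip (L.X (L.X f)) (L.X (L.X f)) = (3 * L.ip (L.LamL f) (L.LamL f) +
      8 * L.d * L.ip f (L.LamL f)) / ((L.d + 1) * (L.d + 3)) := by
    rw [← m3]; field_simp
  have x4 : L.ip (L.L2.S (L.X f)) (L.X f) = L.ip (L.LamL f) (L.LamL f) / (L.d + 1) -
      (3 * L.ip (L.LamL f) (L.LamL f) + 8 * L.d * L.ip f (L.LamL f)) / ((L.d + 1) * (L.d + 3)) +
      4 * (L.d * (L.ip f (L.LamL f) / (L.d + 1))) := by
    rw [← x1, ← x2, ← x3]; linarith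
  rw [x4, x1]
  field_simp
  ring

end Vale.Agent.P207.H143
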