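import Vale.Agent.P207.H143.S0Low
import Vale.Agent.P207.H722.S0Cay

/-!
# P207, S0, low range: the two final theorems
-/

noncomputable section

universe u

namespace Vale.Agent.P207.H143

open Vale.Agent.P207.H391 Vale.Agent.P207.H662 Vale.Agent.P207.Low Vale.Agent.P207.H992

variable {W : Type u} [AddCommGroup W] [Module ℝ W] {L : Lad W} {lam : ℝ}

theorem norm_f (H : S0H L lam) {φ w : W} (hφ : Typ L 0 0 φ) (hw : Typ L 2 0 w)
    (hne : φ + w ≠ 0) : 0 < L.ip φ φ + L.ip w w := by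
  have h1 : L.ip φ w = 0 := D_orth L hφ.D hw.D (by have := H.dim_pos; intro h; nlinarith)
  have h2 : L.ip (φ + w) (φ + w) = L.ip φ φ + L.ip w w := by
    simp only [map_add, LinearMap.add_apply]
    rw [L.symm w φ, h1]
    ring
  rw [← h2]
  refine lt_of_le_of_ne (L.nonneg _) fun h => hne (H.defi _ h.symm)

/-- **S0 for the quaternionic hyperbolic spaces, `8 m ≤ lam ≤ 24 m`** -/
theorem s0_low_H (Φ : Flw L) (H : S0H L lam) {m : ℝ} (hd : L.d = 3) (he : L.e = 4 * m - 4)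
    (hm : 2 ≤ m) (h1 : 8 * m ≤ lam) (h2 : lam ≤ 24 * m)
    (hUL : ∀ t x, L.LamL (Φ.U t x) = Φ.U t (L.LamL x)) {φ w : W} (hφ : Typ L 0 0 φ)
    (hw : Typ L 2 0 w) (hne : φ + w ≠ 0) {M : Submodule ℝ W} (hM : ∀ t, ∀ x ∈ M, Φ.U t x ∈ M)
    (hφM : φ ∈ M) (hwM : w ∈ M) :
    ∃ F₁ ∈ M, ∃ G₁ ∈ M, ∃ F₂ ∈ M, ∃ G₂ ∈ M, 0 < PP L (φ + w) F₁ G₁ F₂ G₂ := by
  have hlam : 0 < lam := by linarith
  have hdim : dim L = 4 * m := by unfold dim; rw [hd, he]; ring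
  obtain ⟨v, a', b', T0⟩ := H.exists_tree0 hφ
  obtain ⟨s, u, a, b, c, p, k, T⟩ := H.exists_tree2 hw
  obtain ⟨W0, W1, W2, p0, p1, p2, e1, e2, e3, q0, q1⟩ := split H hlam T
  have hg := cs L φ c
  have hn := norm_f H hφ hw hne
  refine low_pos Φ H hlam T0 T hUL hM (M.add_mem hφM hwM) (by rw [hd])
    (by rw [hd, he]; linarith) (κ₀ := 1 / 12) ?_
  rw [hdim, hd] at e2 e3 q0
  rw [e3] at hg
  rw [e1] at hn
  rw [hdim, hd, e1, e2, e3]
  refine Vale.Agent.P207.H722.S0.low_H hm h1 h2 (L.nonneg φ) p0 p1 p2 ?_ hg (by linarith)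
  rcases q0 with h | h
  · exact Or.inl h
  · right
    unfold Vale.Agent.P207.H722.S0.b1 at h
    have h3 : 0 < (3 + 1) * (4 * m + 2) := by linarith
    have h4 := (div_pos_iff_of_pos_right h3).1 h
    linarith

/-- **S0 for the Cayley hyperbolic plane, `56 ≤ lam < 96`** -/
theorem s0_low_C (Φ : Flw L) (H : S0H L lam) (hd : L.d = 7) (he : L.e = 8)
    (h1 : 56 ≤ lam) (h2 : lam < 96)
    (hUL : ∀ t x, L.LamL (Φ.U t x) = Φ.U t (L.LamL x)) {φ w : W} (hφ : Typ L 0 0 φ)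
    (hw : Typ L 2 0 w) (hne : φ + w ≠ 0) {M : Submodule ℝ W} (hM : ∀ t, ∀ x ∈ M, Φ.U t x ∈ M)
    (hφM : φ ∈ M) (hwM : w ∈ M) :
    ∃ F₁ ∈ M, ∃ G₁ ∈ M, ∃ F₂ ∈ M, ∃ G₂ ∈ M, 0 < PP L (φ + w) F₁ G₁ F₂ G₂ := by
  have hlam : 0 < lam := by linarith
  have hdim : dim L = 16 := by unfold dim; rw [hd, he]; norm_num
  obtain ⟨v, a', b', T0⟩ := H.exists_tree0 hφ
  obtain ⟨s, u, a, b, c, p, k, T⟩ := H.exists_tree2 hw
  obtain ⟨W0, W1, W2, p0, p1, p2, e1, e2, e3, q0, q1⟩ := split H hlam T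
  have hg := cs L φ c
  have hn := norm_f H hφ hw hne
  have hb' := T0.bb H
  have hb0' := L.nonneg b'
  rw [hdim, hd] at e2 e3 q0 q1 hb'
  have hb0 : Vale.Agent.P207.H722.S0.b0 16 7 lam < 0 := by
    unfold Vale.Agent.P207.H722.S0.b0
    exact div_neg_of_neg_of_pos (by linarith) (by norm_num)
  have hb1 : Vale.Agent.P207.H722.S0.b1 16 7 lam < 0 := by
    unfold Vale.Agent.P207.H722.S0.b1
    exact div_neg_of_neg_of_pos (by linarith) (by norm_num)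
  have w0 : W0 = 0 := q0.resolve_right (not_lt.2 hb1.le)
  have w1 : W1 = 0 := q1.resolve_right (not_lt.2 hb0.le)
  have hΦ : L.ip φ φ = 0 := by
    by_contra h
    have h3 : 0 < L.ip φ φ := lt_of_le_of_ne (L.nonneg φ) (Ne.symm h)
    rw [hb'] at hb0'
    have h4 : 0 < lam / 16 * L.ip φ φ := by positivity
    nlinarith
  rw [w0, w1] at e2
  rw [w1] at e3
  have e2' : L.ip u u = 0 := by rw [e2]; ring
  have e3' : L.ip c c = 0 := by rw [e3]; ring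
  have hgam : L.ip φ c = 0 := by
    rw [hΦ, zero_mul] at hg
    exact pow_eq_zero_iff (two_ne_zero) |>.1 (le_antisymm hg (sq_nonneg _))
  refine low_pos Φ H hlam T0 T hUL hM (M.add_mem hφM hwM) (by rw [hd]; norm_num)
    (by rw [hd, he]; norm_num) (κ₀ := 1 / 16) ?_
  rw [hdim, hd, hΦ, e2', e3', hgam]
  rw [hΦ, zero_add] at hn
  exact Vale.Agent.P207.H722.S0.low_C h1 h2.le hn

end Vale.Agent.P207.H143
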