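import Vale.Agent.P207.H143.Qf0
import Vale.Agent.P207.H992.S0c

/-!
# P207, S0, low range: test fields for functions of type `(0,0) + (2,0)`

`low_pos` : if the certificate `Low` (H722) is positive at the Gram data of `f = φ + w`, then
there are test fields with positive quadratic form.
-/

noncomputable section

universe u

namespace Vale.Agent.P207.H143

open Vale.Agent.P207.H391 Vale.Agent.P207.H662 Vale.Agent.P207.Low Vale.Agent.P207.H992

variable {W : Type u} [AddCommGroup W] [Module ℝ W] {L : Lad W} {lam : ℝ}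

section

variable {φ v a' b' w s u a b c p k : W} (T0 : Tree0 L lam φ v a' b')
  (T : Tree2 L lam w s u a b c p k) (H : S0H L lam)

theorem ker2 (T0 : Tree0 L lam φ v a' b') (T : Tree2 L lam w s u a b c p k) :
    L.L2.Δ (φ + w) = 0 := by
  rw [map_add, T0.tf.D2, T.tw.D2]; simp

include T0 T H

theorem LamL_f : L.LamL (φ + w) = -(L.d + 1) • (k + b' + c -
    ((lam + 4 * dim L) / (dim L + 4)) • w - (1 + dim L / (dim L + 4)) • b -
    (lam / dim L) • φ) := by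
  have hφ : L.L2.Δ φ = 0 := by rw [T0.tf.D2]; simp
  have hw : L.L2.Δ w = 0 := by rw [T.tw.D2]; simp
  have e1 := LamL_eq (L := L) (τ := 0) (u := φ) (by rw [hφ, zero_smul])
  have e2 := LamL_eq (L := L) (τ := 0) (u := w) (by rw [hw, zero_smul])
  have e3 := T0.TXv
  have e4 := T.T_X2w
  have e5 := T.X2w
  have e6 : L.X (L.X φ) = a' + b' - (lam / dim L) • φ := by rw [T0.Xf, T0.Xv]
  rw [H.TX hφ, map_smul, e3, e6] at e1
  rw [H.TX hw, map_smul, e4, e5] at e2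
  rw [map_add, e1, e2]
  module

/-- `M1` -/
theorem M1_val : L.ip (φ + w) (L.LamL (φ + w)) =
    Vale.Agent.P207.H722.S0.M1 (dim L) L.d lam (L.ip φ φ) (L.ip w w) (L.ip u u)
      (L.ip φ c) := by
  have hf := ker2 T0 T
  have h1 := ip_LamL L hf hf
  have e1 : L.X (φ + w) = v + s - u := by rw [map_add, T0.Xf, T.Xw]; abel
  have o1 := o_vs T0 T H
  have o2 := ip_vu T0 T H
  have o3 := T.o_su H
  rw [L.symm, h1, e1]
  simp only [map_add, map_sub, LinearMap.add_apply, LinearMap.sub_apply]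
  rw [L.symm s v, L.symm u v, L.symm u s, o1, o2, o3, T0.vv H, (T.gram_s H).1]
  unfold Vale.Agent.P207.H722.S0.M1
  ring

/-- `M2` -/
theorem M2_val : L.ip (L.LamL (φ + w)) (L.LamL (φ + w)) =
    Vale.Agent.P207.H722.S0.M2 (dim L) L.d lam (L.ip φ φ) (L.ip w w) (L.ip u u) (L.ip c c)
      (L.ip φ c) := by
  have g1 := (T.gram_s H).2.2
  have g2 := T.bb H
  have g3 := T0.bb H
  have g4 := ip_b'w T0 T H
  have g5 := ip_b'b T0 T H
  have g6 := T.bw H
  have o1 := T.o_kw H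
  have o2 := T.o_kb H
  have o3 := T.o_kc H
  have o4 := o_fk T0 T H
  have o5 := o_b'k T0 T H
  have o6 := o_b'c T0 T H
  have o7 := T0.o_bf H
  have o8 := T.o_wc H
  have o9 := T.o_bc H
  have o10 := o_fw T0 T H
  have o11 := o_fb T0 T H
  rw [LamL_f T0 T H]
  unfold Vale.Agent.P207.H722.S0.M2 Vale.Agent.P207.H722.S0.y2
  generalize (lam + 4 * dim L) / (dim L + 4) = c0 at *
  generalize dim L / (dim L + 4) = g at *
  simp only [map_add, map_sub, map_smul, LinearMap.add_apply, LinearMap.sub_apply,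
    LinearMap.smul_apply, smul_eq_mul]
  rw [L.symm k b', L.symm k φ, L.symm c k, L.symm c b', L.symm w k, L.symm w b', L.symm w φ,
    L.symm w b, L.symm b k, L.symm b b', L.symm b φ, L.symm φ b', L.symm c w, L.symm c b,
    L.symm c φ]
  rw [o1, o2, o3, o4, o5, o6, o7, o8, o9, o10, o11, g1, g2, g3, g4, g5, g6]
  ring

end

/-- **S0, low range** -/
theorem low_pos (Φ : Flw L) (H : S0H L lam) (hlam : 0 < lam) {φ v a' b' w s u a b c p k : W}
    (T0 : Tree0 L lam φ v a' b') (T : Tree2 L lam w s u a b c p k)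
    (hUL : ∀ t x, L.LamL (Φ.U t x) = Φ.U t (L.LamL x)) {M : Submodule ℝ W}
    (hM : ∀ t, ∀ x ∈ M, Φ.U t x ∈ M) (hfM : φ + w ∈ M) (hd3' : 3 ≤ L.d)
    (hn : L.d ≤ L.e) {κ₀ : ℝ}
    (hpos : 0 < Vale.Agent.P207.H722.S0.Low (dim L) L.d lam κ₀ (L.ip φ φ) (L.ip w w)
      (L.ip u u) (L.ip c c) (L.ip φ c)) :
    ∃ F₁ ∈ M, ∃ G₁ ∈ M, ∃ F₂ ∈ M, ∃ G₂ ∈ M, 0 < PP L (φ + w) F₁ G₁ F₂ G₂ := by
  have hd : 0 < L.d := by linarith [H.hd]
  have hd2 := H.hd
  have hf := ker2 T0 T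
  have h1 := M1_val T0 T H
  have h2 := M2_val T0 T H
  have h3 : L.ip (φ + w) (φ + w) = L.ip φ φ + L.ip w w := by
    simp only [map_add, LinearMap.add_apply]
    rw [L.symm w φ, o_fw T0 T H]
    ring
  have hq := qf2_val L hf hd κ₀
  rw [h1, h2] at hq
  set low := Vale.Agent.P207.H722.S0.Low (dim L) L.d lam κ₀ (L.ip φ φ) (L.ip w w)
      (L.ip u u) (L.ip c c) (L.ip φ c) with hlow
  have hε : 0 < L.d * low / 2 := by positivity
  have hd1 : (L.d + 1) ≠ 0 := by positivity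
  have hd3 : (L.d + 3) ≠ 0 := by positivity
  have key : ∃ F₁ ∈ M, ∃ G₁ ∈ M, ∃ F₂ ∈ M, ∃ G₂ ∈ M,
      (4 * (3 / 4) - 1) * (L.L2.qf (φ + w) 0 (-κ₀ • (φ + w)) + L.d * L.ip (φ + w) (φ + w)) -
        (3 / 4) ^ 2 / lam * (2 * L.d * L.ip (φ + w) (L.LamL (φ + w)) +
          L.d / (2 * (L.d + 1)) * L.ip (L.LamL (φ + w)) (L.LamL (φ + w))) - L.d * low / 2 ≤
        PP L (φ + w) F₁ G₁ F₂ G₂ :=
    pi0_d Φ hUL hd3' hlam (H.eig _) hf (by norm_num) (by linarith) hM hfM 0 (-κ₀ • (φ + w)) hε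
  obtain ⟨F₁, m1, G₁, m2, F₂, m3, G₂, m4, h⟩ := key
  refine ⟨F₁, m1, G₁, m2, F₂, m3, G₂, m4, lt_of_lt_of_le ?_ h⟩
  rw [hq, h1, h2, h3]
  have e : L.d * low = 2 * (L.d * (2 * κ₀ *
      Vale.Agent.P207.H722.S0.M1 (dim L) L.d lam (L.ip φ φ) (L.ip w w) (L.ip u u) (L.ip φ c) /
      (L.d + 1) - κ₀ ^ 2 * (Vale.Agent.P207.H722.S0.M2 (dim L) L.d lam (L.ip φ φ) (L.ip w w)
      (L.ip u u) (L.ip c c) (L.ip φ c) + 8 * (L.d + 2) *
      Vale.Agent.P207.H722.S0.M1 (dim L) L.d lam (L.ip φ φ) (L.ip w w) (L.ip u u) (L.ip φ c)) /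
      ((L.d + 1) * (L.d + 3))) + L.d * (L.ip φ φ + L.ip w w)) -
      (3 / 4) ^ 2 / lam * (2 * L.d *
      Vale.Agent.P207.H722.S0.M1 (dim L) L.d lam (L.ip φ φ) (L.ip w w) (L.ip u u) (L.ip φ c) +
      L.d / (2 * (L.d + 1)) * Vale.Agent.P207.H722.S0.M2 (dim L) L.d lam (L.ip φ φ) (L.ip w w)
      (L.ip u u) (L.ip c c) (L.ip φ c)) := by
    rw [hlow]
    unfold Vale.Agent.P207.H722.S0.Low
    generalize Vale.Agent.P207.H722.S0.M1 (dim L) L.d lam (L.ip φ φ) (L.ip w w) (L.ip u u)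
      (L.ip φ c) = m1
    generalize Vale.Agent.P207.H722.S0.M2 (dim L) L.d lam (L.ip φ φ) (L.ip w w)
      (L.ip u u) (L.ip c c) (L.ip φ c) = m2
    field_simp
    ring
  have e' : (4 * (3 / 4) - 1 : ℝ) = 2 := by norm_num
  rw [e', ← e]
  linarith

end Vale.Agent.P207.H143
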